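import Vale.Agent.P207.N3.H722.Lab

/-!
# P207, line N3, PF3: the normalisation of the two normal coordinates
-/

open Set Filter Topology Metric
open scoped ContDiff

noncomputable section

namespace Vale.Agent.P207.N3.H722

open Vale.Agent.P207.N3.H76 (pk tl e0 sg)

variable {Γ X B : Type} [Group Γ] [MetricSpace X] [ProperSpace X] [MulAction Γ X]
  [IsIsometricSMul Γ X] [TopologicalSpace B] [CompactSpace B] [T2Space B] [MulAction Γ B]
  [ContinuousConstSMul Γ B]

theorem bijective_of_det {A : E2 →L[ℝ] E2} (h : A.det ≠ 0) : Function.Bijective A :=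
  (LinearMap.equivOfDetNeZero A.toLinearMap h).bijective

namespace GeoIn

variable {L : Leaf Γ X B} {V : Type} [NormedAddCommGroup V] [NormedSpace ℝ V]
  [FiniteDimensional ℝ V] (I : GeoIn L V)

/-- the second derivative of `b_ξ + b_η` on the disc, at a point of the geodesic `(ξ, η)` -/
theorem hess_disc (x₀ : X) (ξ η : B) {t : E2} (ht : t ∈ ball (0 : E2) I.S.R)
    (h : I.vel ξ (I.D x₀ t) + I.vel η (I.D x₀ t) = 0) (v w : E2) :
    inner ℝ (hess (fun t => I.b ξ (I.D x₀ t)) t v + hess (fun t => I.b η (I.D x₀ t)) t v) w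
      = fderiv ℝ (fderiv ℝ (fun q => I.b ξ q + I.b η q)) (I.D x₀ t) (I.J x₀ t v)
        (I.J x₀ t w) := by
  set f : V → ℝ := fun q => I.b ξ q + I.b η q with hf
  have hbs : ∀ ζ, ContDiff ℝ ∞ (I.b ζ) := fun ζ => by
    rw [← contDiffOn_univ]
    exact I.b_jc.smooth ζ
  have hfs : ContDiff ℝ ∞ f := (hbs ξ).add (hbs η)
  have hf1 : ContDiff ℝ ∞ (fderiv ℝ f) := hfs.fderiv_right (by simp)
  have hf0 : fderiv ℝ f (I.D x₀ t) = 0 := by
    have h1 := ((I.b_hasFDerivAt invThm ξ (I.D x₀ t)).add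
      (I.b_hasFDerivAt invThm η (I.D x₀ t))).fderiv
    change fderiv ℝ f (I.D x₀ t) = _ at h1
    rw [h1, ← map_add, h, map_zero]
  have hg : ∀ ζ, ∀ t ∈ ball (0 : E2) I.S.R, gradient (fun t => I.b ζ (I.D x₀ t)) t
      = cv ((fderiv ℝ (I.b ζ) (I.D x₀ t)).comp (I.J x₀ t)) := by
    intro ζ t ht
    rw [I.gradient_b x₀ ζ ht, I.b_fderiv invThm, mom]
  have hdg : ∀ ζ, DifferentiableAt ℝ (gradient fun t => I.b ζ (I.D x₀ t)) t := by
    intro ζ
    have h1 : ContDiffAt ℝ ∞ (fun t => I.b ζ (I.D x₀ t)) t :=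
      ContDiffAt.comp t (hbs ζ).contDiffAt (I.D_smoothAt x₀ ht)
    have h2 : gradient (fun t => I.b ζ (I.D x₀ t))
        = fun t => cv (fderiv ℝ (fun t => I.b ζ (I.D x₀ t)) t) := funext fun t => gradient_eq _ _
    rw [h2]
    have h3 : DifferentiableAt ℝ (fun t' => fderiv ℝ (fun t => I.b ζ (I.D x₀ t)) t') t :=
      (h1.fderiv_right (m := ∞) (by simp)).differentiableAt (by simp)
    have h4 : DifferentiableAt ℝ (⇑cv) (fderiv ℝ (fun t => I.b ζ (I.D x₀ t)) t) :=
      ContinuousLinearMap.differentiableAt cv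
    exact h4.comp t h3
  have hD : HasFDerivAt (I.D x₀) (I.J x₀ t) t := (I.D_diffAt x₀ ht).hasFDerivAt
  have hJ : HasFDerivAt (I.J x₀) (fderiv ℝ (I.J x₀) t) t :=
    (((I.J_smooth x₀).contDiffAt (isOpen_ball.mem_nhds ht)).differentiableAt (by simp)).hasFDerivAt
  have h1 : HasFDerivAt (fun t => fderiv ℝ f (I.D x₀ t))
      ((fderiv ℝ (fderiv ℝ f) (I.D x₀ t)).comp (I.J x₀ t)) t :=
    ((hf1.differentiable (by simp)).differentiableAt.hasFDerivAt).comp t hD
  have h2 := cv.hasFDerivAt.comp t (h1.clm_comp hJ)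
  have heq : (fun t => gradient (fun t => I.b ξ (I.D x₀ t)) t
      + gradient (fun t => I.b η (I.D x₀ t)) t) =ᶠ[𝓝 t]
      (⇑cv ∘ fun y => (fderiv ℝ f (I.D x₀ y)).comp (I.J x₀ y)) := by
    filter_upwards [isOpen_ball.mem_nhds ht] with s hs
    rw [hg ξ s hs, hg η s hs, ← map_add]
    change _ = cv ((fderiv ℝ f (I.D x₀ s)).comp (I.J x₀ s))
    congr 1
    have h4 : fderiv ℝ f (I.D x₀ s) = fderiv ℝ (I.b ξ) (I.D x₀ s) + fderiv ℝ (I.b η) (I.D x₀ s) :=
      fderiv_add ((hbs ξ).differentiable (by simp)).differentiableAt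
        ((hbs η).differentiable (by simp)).differentiableAt
    rw [h4]
    rfl
  have h3 := h2.congr_of_eventuallyEq heq
  have h4 := ((hdg ξ).hasFDerivAt.add (hdg η).hasFDerivAt).unique h3
  have h5 := congrArg (fun A => A v) h4
  change hess (fun t => I.b ξ (I.D x₀ t)) t v + hess (fun t => I.b η (I.D x₀ t)) t v = _ at h5
  rw [h5]
  simp only [ContinuousLinearMap.coe_comp, Function.comp_apply]
  rw [inner_cv]
  simp [hf0]

theorem hess_zero {Mt : Metr L} (H : HessIn I Mt) (x₀ : X) (v w : E2) :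
    inner ℝ (hess (fun t => I.b (L.em x₀) (I.D x₀ t)) 0 v
      + hess (fun t => I.b (L.ep x₀) (I.D x₀ t)) 0 v) w
      = I.r₀ ^ 2 * inner ℝ (Mt.U x₀ v + Mt.U (L.flip x₀) v) w := by
  rw [I.hess_disc x₀ _ _ I.S.zero_mem, I.J_zero, I.J_zero, I.D_zero]
  · have h1 : ∀ u : E2, pk 0 (I.r₀ • u) = I.r₀ • pk 0 u := fun u => by
      rw [← H76.pk_smul, mul_zero]
    rw [h1, h1, map_smul, map_smul, map_smul, map_smul, smul_apply, H.hess, smul_eq_mul,
      smul_eq_mul]
    ring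
  · rw [I.D_zero, I.vel_eq invThm, ← em_flip, ← I.ft_flip, I.vel_eq invThm, E_flip_e0,
      add_neg_cancel]

variable (o : Orb L) (n : Nor L o) (n' : Nor L o.flip)

theorem th_smooth : ContDiffOn ℝ ∞ (th o n) (ball 0 3) := n.smooth o.x rfl

theorem th'_smooth (M : E2 ≃L[ℝ] E2) : ContDiffOn ℝ ∞ (th' o n' M) (ball 0 3) :=
  M.contDiff.comp_contDiffOn (n'.smooth (L.flip o.x) rfl)

theorem th_zero : th o n 0 = 0 := by
  rw [th, L.e_zero]
  exact n.base

theorem th'_zero (M : E2 ≃L[ℝ] E2) : th' o n' M 0 = 0 := by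
  have h : n'.x (L.ep (L.flip o.x)) = 0 := n'.base
  rw [th', L.e_zero, h, map_zero]

theorem th_det : (fderiv ℝ (th o n) 0).det ≠ 0 :=
  n.deriv o.x rfl 0 (mem_ball_self (by norm_num))

theorem th_inv : (fderiv ℝ (th o n) 0).IsInvertible :=
  isInvertible_of_bijective (bijective_of_det (th_det o n))

theorem fn_zero : n.N.fn 0 = 0 := by
  have h := inv_N o n 0
  rw [inv_zero] at h
  have h1 : o.β⁻¹ • o.pos = o.pos := by rw [inv_smul_eq_iff, o.smul_pos]
  rw [h1] at h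
  rw [← n.inv_right (n.N.fn 0), h, n.base]

theorem N'_zero (M : E2 ≃L[ℝ] E2) : N' o n' M 0 = 0 := by
  have h := xip_N' o n' M 0
  rw [xip_zero] at h
  have h1 : o.β⁻¹ • o.neg = o.neg := by rw [inv_smul_eq_iff, o.smul_neg]
  rw [h1, xip] at h
  have h2 := n'.inv_right (M.symm (N' o n' M 0))
  rw [h, ← flip_pos, n'.base] at h2
  rw [← M.apply_symm_apply (N' o n' M 0), ← h2, map_zero]

/-- the linear change of the second normal coordinate -/
theorem exists_M {Mt : Metr L} (H : HessIn I Mt) : ∃ M : E2 ≃L[ℝ] E2, ∀ v w,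
    inner ℝ (fderiv ℝ (th o n) 0 v) (fderiv ℝ (th' o n' M) 0 w)
      = inner ℝ (hess (I.uu o n' M 0) 0 v + hess (I.ss o n 0) 0 v) w := by
  obtain ⟨A, hA⟩ := th_inv o n
  have hBd : (fderiv ℝ (fun t => n'.x (L.e (L.flip o.x) t)) 0).det ≠ 0 :=
    n'.deriv (L.flip o.x) rfl 0 (mem_ball_self (by norm_num))
  obtain ⟨Bq, hB⟩ := isInvertible_of_bijective (bijective_of_det hBd)
  set H0 : E2 →L[ℝ] E2 := I.r₀ ^ 2 • (Mt.U o.x + Mt.U (L.flip o.x)) with hH0
  have hH0a : ∀ v, H0 v = I.r₀ ^ 2 • (Mt.U o.x v + Mt.U (L.flip o.x) v) := fun v => rfl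
  have hH0i : ∀ v, H0 v = 0 → v = 0 := by
    intro v hv
    by_contra hne
    have h1 := Mt.U_pos o.x v hne
    have h2 := Mt.U_pos (L.flip o.x) v hne
    have h3 : inner ℝ (H0 v) v = 0 := by rw [hv, inner_zero_left]
    rw [hH0a, real_inner_smul_left, inner_add_left] at h3
    have h4 : 0 < I.r₀ ^ 2 := pow_pos I.r₀_pos 2
    have h5 := mul_pos h4 (add_pos h1 h2)
    linarith
  have hH0s : ∀ v w, inner ℝ (H0 v) w = inner ℝ v (H0 w) := by
    intro v w
    rw [hH0a, hH0a, real_inner_smul_left, real_inner_smul_right, inner_add_left,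
      inner_add_right, Mt.U_symm, Mt.U_symm]
  let C : E2 →L[ℝ] E2 := (ContinuousLinearMap.adjoint (A.symm : E2 →L[ℝ] E2)).comp
    (H0.comp (Bq.symm : E2 →L[ℝ] E2))
  have hC : Function.Bijective C := by
    refine bijective_of_injective rfl fun v hv => ?_
    have h1 : ∀ w, inner ℝ (H0 (Bq.symm v)) w = 0 := by
      intro w
      have h2 : inner ℝ (C v) (A w) = 0 := by rw [hv, inner_zero_left]
      change inner ℝ (ContinuousLinearMap.adjoint (A.symm : E2 →L[ℝ] E2) (H0 (Bq.symm v)))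
        (A w) = 0 at h2
      rw [ContinuousLinearMap.adjoint_inner_left] at h2
      simpa using h2
    have h3 := hH0i _ (inner_self_eq_zero.1 (h1 _))
    simpa using h3
  obtain ⟨M, hM⟩ := isInvertible_of_bijective hC
  refine ⟨M, fun v w => ?_⟩
  have h1 : I.uu o n' M 0 = fun t => I.b (L.em o.x) (I.D o.x t) := by
    funext t
    rw [uu, xip_zero]
    rfl
  have h2 : I.ss o n 0 = fun t => I.b (L.ep o.x) (I.D o.x t) := by
    funext t
    rw [ss, inv_zero]
    rfl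
  rw [h1, h2, I.hess_zero H, ← real_inner_smul_left, ← hH0a, ← hA]
  have h3 : fderiv ℝ (th' o n' M) 0 w = M (Bq w) := by
    have h4 : th' o n' M = M ∘ fun t => n'.x (L.e (L.flip o.x) t) := rfl
    rw [h4, M.comp_fderiv, ← hB]
    rfl
  have h4 : M (Bq w) = C (Bq w) := by rw [← hM]; rfl
  rw [h3, h4]
  change inner ℝ (A v) (ContinuousLinearMap.adjoint (A.symm : E2 →L[ℝ] E2)
    (H0 (Bq.symm (Bq w)))) = _
  rw [ContinuousLinearMap.adjoint_inner_right, Bq.symm_apply_apply]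
  change inner ℝ (A.symm (A v)) (H0 w) = _
  rw [A.symm_apply_apply, hH0s]

end GeoIn

end Vale.Agent.P207.N3.H722
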