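import Vale.Agent.P207.N3.H722.Lab2
import Vale.Agent.P207.N3.H722.Nrm
import Vale.Agent.P207.N3.H790.NF

/-!
# P207, line N3, PF3: the record, from the geometric half and the densities
-/

open Set Filter Topology Metric MeasureTheory
open scoped ContDiff

noncomputable section

namespace Vale.Agent.P207.N3.H722

open Vale.Agent.P207.N3.H76 (pk tl e0 sg)
open Vale.Agent.P207.N3.H722.GeoIn

variable {Γ X B : Type} [Group Γ] [MetricSpace X] [ProperSpace X] [MulAction Γ X]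
  [IsIsometricSMul Γ X] [TopologicalSpace B] [CompactSpace B] [T2Space B] [MulAction Γ B]
  [ContinuousConstSMul Γ B] {L : Leaf Γ X B}
  {V : Type} [NormedAddCommGroup V] [NormedSpace ℝ V] [FiniteDimensional ℝ V]

variable (I : GeoIn L V) (o : Orb L) (n : Nor L o) (n' : Nor L o.flip) (M : E2 ≃L[ℝ] E2)

/-- the input of the product formula, from the densities -/
def pfOf (h : ℝ) (rY rX : E2 → E2 → ℝ) (WY WX : Set (E2 × E2)) (hWY : (0, 0) ∈ WY)
    (hWX : (0, 0) ∈ WX) (jY : JC rY WY) (jX : JC rX WX)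
    (norm : ∀ v w, inner ℝ (fderiv ℝ (th o n) 0 v) (fderiv ℝ (th' o n' M) 0 w)
      = inner ℝ (hess (I.uu o n' M 0) 0 v + hess (I.ss o n 0) 0 v) w)
    (star : ∀ᶠ z in 𝓝 (0 : (E2 × E2) × E2),
      gradient (I.uu o n' M z.1.2) z.2 + gradient (I.ss o n z.1.1) z.2 = 0 →
      0 < (hess (I.uu o n' M z.1.2) z.2 + hess (I.ss o n z.1.1) z.2).det ∧
      Real.log (hess (I.uu o n' M z.1.2) z.2 + hess (I.ss o n z.1.1) z.2).det
        = rY z.1.2 z.2 + rX z.1.1 z.2)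
    (dens : ∃ c, ∀ᶠ t in 𝓝 (0 : E2), Real.log |(fderiv ℝ (th o n) t).det|
      = rY 0 t - h * I.uu o n' M 0 t + c)
    (dens' : ∃ c, ∀ᶠ t in 𝓝 (0 : E2), Real.log |(fderiv ℝ (th' o n' M) t).det|
      = rX 0 t - h * I.ss o n 0 t + c)
    (ρ_inv : ∃ c : E2 → ℝ, ∀ᶠ z in 𝓝 (0 : E2 × E2),
      rY (N' o n' M z.1) (I.PP o (lf (I.uu o n' M) z)).1
        + Real.log |(fderiv ℝ (fun t => (I.PP o (lf (I.uu o n' M) (z.1, t))).1) z.2).det|
        = rY z.1 z.2 + h * I.pl o (lf (I.uu o n' M) z) + c z.1)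
    (ρ'_inv : ∃ c : E2 → ℝ, ∀ᶠ z in 𝓝 (0 : E2 × E2),
      rX (n.N.fn z.1) (I.PP o (lf' (I.ss o n) z)).1
        + Real.log |(fderiv ℝ (fun t => (I.PP o (lf' (I.ss o n) (z.1, t))).1) z.2).det|
        = rX z.1 z.2 - h * I.pl o (lf' (I.ss o n) z) + c z.1)
    (hol : ∀ᶠ r₁ in 𝓝[>] (0 : ℝ), ∃ r₀ > 0, ∀ᶠ y in 𝓝 (0 : E2), ∀ f : E2 → ℝ, Continuous f →
      tsupport f ⊆ ball 0 r₀ →
      ∫ t in ball (0 : E2) r₁, f (I.xh o n (lf (I.uu o n' M) (y, t))) *
          Real.exp (rY y t + h * I.ss o n (I.xh o n (lf (I.uu o n' M) (y, t))) t)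
        = ∫ t in ball (0 : E2) r₁, f (I.xh o n (lf (I.uu o n' M) (0, t))) *
          Real.exp (rY 0 t + h * I.ss o n (I.xh o n (lf (I.uu o n' M) (0, t))) t))
    (hol' : ∀ᶠ r₁ in 𝓝[>] (0 : ℝ), ∃ r₀ > 0, ∀ᶠ x in 𝓝 (0 : E2), ∀ f : E2 → ℝ, Continuous f →
      tsupport f ⊆ ball 0 r₀ →
      ∫ t in ball (0 : E2) r₁, f (I.yh o n' M (lf' (I.ss o n) (x, t))) *
          Real.exp (rX x t + h * I.uu o n' M (I.yh o n' M (lf' (I.ss o n) (x, t))) t)
        = ∫ t in ball (0 : E2) r₁, f (I.yh o n' M (lf' (I.ss o n) (0, t))) *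
          Real.exp (rX 0 t + h * I.uu o n' M (I.yh o n' M (lf' (I.ss o n) (0, t))) t)) :
    PFIn n.N.fn (N' o n' M) h where
  N_zero := fn_zero o n
  N'_zero := N'_zero o n' M
  N_cont := n.N.contDiff_fn.continuous.continuousAt
  N'_cont := (M.continuous.comp (n'.N.contDiff_inv.continuous.comp M.symm.continuous)).continuousAt
  u := I.uu o n' M
  ρ := rY
  s := I.ss o n
  ρ' := rX
  W := (WY ∩ WX) ∩ (univ ×ˢ ball 0 I.S.R)
  W_mem := ⟨⟨hWY, hWX⟩, mem_univ _, I.S.zero_mem⟩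
  u_jc := (I.uu_jc o n' M).mono ((jY.isOpen.inter jX.isOpen).inter (isOpen_univ.prod isOpen_ball))
    inter_subset_right
  s_jc := (I.ss_jc o n).mono ((jY.isOpen.inter jX.isOpen).inter (isOpen_univ.prod isOpen_ball))
    inter_subset_right
  ρ_jc := jY.mono ((jY.isOpen.inter jX.isOpen).inter (isOpen_univ.prod isOpen_ball))
    fun _ h => h.1.1
  ρ'_jc := jX.mono ((jY.isOpen.inter jX.isOpen).inter (isOpen_univ.prod isOpen_ball))
    fun _ h => h.1.2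
  crit := I.grad_uu_zero o n' M
  crit' := I.grad_ss_zero o n
  ϑ := th o n
  ϑ' := th' o n' M
  ϑ_smooth := by
    filter_upwards [ball_mem_nhds (0 : E2) (by norm_num : (0 : ℝ) < 3)] with t ht
    exact (th_smooth o n).contDiffAt (isOpen_ball.mem_nhds ht)
  ϑ'_smooth := by
    filter_upwards [ball_mem_nhds (0 : E2) (by norm_num : (0 : ℝ) < 3)] with t ht
    exact (th'_smooth o n' M).contDiffAt (isOpen_ball.mem_nhds ht)
  ϑ_zero := th_zero o n
  ϑ'_zero := th'_zero o n' M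
  ϑ_inv := th_inv o n
  norm := norm
  yh := I.yh o n' M
  xh := I.xh o n
  yh_cont := I.yh_cont o n' M
  xh_cont := I.xh_cont o n
  yh_zero := I.yh_zero o n' M
  xh_zero := I.xh_zero o n
  leaf_yh := I.leaf_yh o n' M
  yh_leaf := I.yh_leaf o n' M
  leaf_xh := I.leaf_xh o n
  xh_leaf := I.xh_leaf o n
  label := I.label o n n' M
  label' := I.label' o n n' M
  star := star
  dens := dens
  dens' := dens'
  P := I.PP o
  ℓ := I.pl o
  P_zero := I.PP_zero o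
  P_smooth := I.PP_smooth o
  ℓ_smooth := I.pl_smooth o
  P_leaf := I.P_leaf o n' M
  P_leaf' := I.P_leaf' o n
  ρ_inv := ρ_inv
  ρ'_inv := ρ'_inv
  hol := hol
  hol' := hol'

end Vale.Agent.P207.N3.H722
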