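import Vale.Agent.P207.N3.H722.Poin
import Vale.Agent.P207.N3.H229.Base
import Vale.Agent.P207.N3.H250.PFIn

/-!
# P207, line N3, PF3: the labels of the leaves near a closed orbit

`o` the closed orbit, `n` and `n'` normal coordinates of `U_{γ⁻}` and `U_{γ⁺}`, `M` a linear change
of the second one. `u y = b_ξ ∘ D`, `s x = b_η ∘ D` on the disc `D = D o.x`.
-/

open Set Filter Topology Metric
open scoped ContDiff

noncomputable section

namespace Vale.Agent.P207.N3.H722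

open Vale.Agent.P207.N3.H76 (pk tl e0 sg)

variable {Γ X B : Type} [Group Γ] [MetricSpace X] [ProperSpace X] [MulAction Γ X]
  [IsIsometricSMul Γ X] [TopologicalSpace B] [CompactSpace B] [T2Space B] [MulAction Γ B]
  [ContinuousConstSMul Γ B]

/-- a normal coordinate is continuous -/
theorem nor_contAt {L : Leaf Γ X B} {o : Orb L} (n : Nor L o) {η : B} (h : η ≠ o.neg) :
    ContinuousAt n.x η := by
  obtain ⟨y, hy1, hy2, -⟩ := L.exists_frame o.neg η h.symm 0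
  have h0 : L.e y 0 = η := by rw [L.e_zero, hy2]
  have hO : IsOpen {p : X × B | p.2 ∈ L.e p.1 '' ball 0 3} := L.e_open
  have hmem : (y, η) ∈ {p : X × B | p.2 ∈ L.e p.1 '' ball 0 3} :=
    ⟨0, mem_ball_self (by norm_num), h0⟩
  have h1 : ContinuousAt (fun p : X × B => H229.ei L p.1 p.2) (y, η) := by
    refine (H229.inv_cont L).continuousAt (mem_of_superset (hO.mem_nhds hmem) ?_)
    rintro p ⟨v, hv, hp⟩
    exact ⟨v, ball_subset_closedBall hv, hp⟩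
  have h2 : ContinuousAt (fun η' : B => H229.ei L y η') η :=
    ContinuousAt.comp (f := fun η' : B => ((y, η') : X × B)) h1 (by fun_prop)
  have h3 : H229.ei L y η = 0 := by
    rw [← h0]
    exact H229.ei_eq (mem_closedBall_self (by norm_num))
  have h4 : ContinuousAt (fun v => n.x (L.e y v)) (H229.ei L y η) := by
    rw [h3]
    exact (n.smooth y hy1).continuousOn.continuousAt (ball_mem_nhds 0 (by norm_num))
  have h5 := ContinuousAt.comp (f := fun η' : B => H229.ei L y η') h4 h2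
  refine h5.congr_of_eventuallyEq ?_
  have hc : ContinuousAt (fun η' : B => ((y, η') : X × B)) η := by fun_prop
  have h6 : ∀ᶠ η' in 𝓝 η, (y, η') ∈ {p : X × B | p.2 ∈ L.e p.1 '' ball 0 3} :=
    hc.tendsto.eventually (hO.mem_nhds hmem)
  filter_upwards [h6] with η' hη'
  obtain ⟨v, hv, hv'⟩ := hη'
  change n.x η' = n.x (L.e y (H229.ei L y η'))
  rw [H229.e_ei ⟨v, ball_subset_closedBall hv, hv'⟩]

theorem flip_neg {L : Leaf Γ X B} (o : Orb L) : o.flip.neg = o.pos := (L.ep_flip o.x).symm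

theorem flip_pos {L : Leaf Γ X B} (o : Orb L) : o.flip.pos = o.neg := by
  change L.ep (L.flip o.x) = L.em o.x
  rw [L.ep_flip, L.flip_flip]

theorem inv_zero {L : Leaf Γ X B} {o : Orb L} (n : Nor L o) : n.inv 0 = o.pos := by
  rw [← n.base, n.inv_left _ o.neg_ne_pos.symm]

namespace GeoIn

variable {L : Leaf Γ X B} {V : Type} [NormedAddCommGroup V] [NormedSpace ℝ V]
  [FiniteDimensional ℝ V] (I : GeoIn L V)

theorem mom_e0 (x₀ : X) : I.mom x₀ 0 (I.E x₀ e0) = 0 := by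
  refine ext_inner_right ℝ fun u => ?_
  rw [inner_mom, J_zero, I.D_zero, I.G_E, inner_zero_left, PiLp.inner_apply,
    Fin.sum_univ_three]
  have a0 : e0 0 = 1 := rfl
  have a1 : e0 1 = 0 := rfl
  have a2 : e0 2 = 0 := rfl
  have b0 : (pk 0 (I.r₀ • u)) 0 = 0 := rfl
  simp [a0, a1, a2, b0]

theorem D_contAt (x₀ : X) : ContinuousAt (I.D x₀) 0 := (I.D_smoothAt x₀ I.S.zero_mem).continuousAt

/-- a family of unit vectors which tends to the velocity of `x₀` -/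
theorem vv_of {x₀ : X} {F : E2 × E2 → V} (h1 : ContinuousAt F 0) (h2 : F 0 = I.E x₀ e0)
    (h3 : ∀ z, I.G (I.D x₀ z.2) (F z) (F z) = 1) :
    ∀ᶠ z in 𝓝 (0 : E2 × E2), I.vv x₀ (z.2, I.mom x₀ z.2 (F z)) = F z := by
  have h4 : Tendsto (fun z : E2 × E2 => (z.2, F z)) (𝓝 0) (𝓝 ((0, I.E x₀ e0) : E2 × V)) := by
    rw [← h2]
    exact (continuous_snd.continuousAt.prodMk h1)
  filter_upwards [h4.eventually (I.vv_unique x₀)] with z hz
  exact hz (h3 z)

/-! ### the leaves -/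

variable (o : Orb L) (n : Nor L o) (n' : Nor L o.flip) (M : E2 ≃L[ℝ] E2)

/-- the point `ξ` near `γ⁻` with label `y` -/
def xip (y : E2) : B := n'.inv (M.symm y)

/-- the Busemann functions of the points near `γ⁻` -/
def uu (y t : E2) : ℝ := I.b (xip o n' M y) (I.D o.x t)

/-- the Busemann functions of the points near `γ⁺` -/
def ss (x t : E2) : ℝ := I.b (n.inv x) (I.D o.x t)

theorem xip_cont : Continuous (xip o n' M) := n'.inv_cont.comp M.symm.continuous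

theorem xip_zero : xip o n' M 0 = o.neg := by
  rw [xip, map_zero, inv_zero, flip_pos]

theorem b_D_jc {c : E2 → B} (hc : Continuous c) :
    JC (fun (y : E2) t => I.b (c y) (I.D o.x t)) (univ ×ˢ ball 0 I.S.R) := by
  have h1 : JC (fun (_ : E2) => I.D o.x) (univ ×ˢ ball 0 I.S.R) :=
    JC.of_contDiffOn isOpen_ball (I.D_smooth o.x) (isOpen_univ.prod isOpen_ball) fun p hp => hp.2
  exact (I.b_jc.pullback hc).comp' h1 fun _ _ => mem_univ _

theorem uu_jc : JC (I.uu o n' M) (univ ×ˢ ball 0 I.S.R) := I.b_D_jc o (xip_cont o n' M)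

theorem ss_jc : JC (I.ss o n) (univ ×ˢ ball 0 I.S.R) := I.b_D_jc o n.inv_cont

theorem grad_uu (y : E2) {t : E2} (ht : t ∈ ball (0 : E2) I.S.R) :
    gradient (I.uu o n' M y) t = I.mom o.x t (I.vel (xip o n' M y) (I.D o.x t)) :=
  I.gradient_b o.x _ ht

theorem grad_ss (x : E2) {t : E2} (ht : t ∈ ball (0 : E2) I.S.R) :
    gradient (I.ss o n x) t = I.mom o.x t (I.vel (n.inv x) (I.D o.x t)) :=
  I.gradient_b o.x _ ht

/-- points of the disc, for pairs `(label, t)` near `0` -/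
theorem ev_ball : ∀ᶠ z : E2 × E2 in 𝓝 0, z.2 ∈ ball (0 : E2) I.S.R :=
  continuous_snd.continuousAt.eventually (isOpen_ball.mem_nhds
    (show ((0 : E2 × E2)).2 ∈ ball (0 : E2) I.S.R from I.S.zero_mem))

theorem velD_contAt {c : E2 → B} (hc : Continuous c) :
    ContinuousAt (fun z : E2 × E2 => I.vel (c z.1) (I.D o.x z.2)) 0 := by
  have h1 : ContinuousAt (fun z : E2 × E2 => ((c z.1, I.D o.x z.2) : B × V)) 0 := by
    refine (hc.comp continuous_fst).continuousAt.prodMk ?_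
    have h2 : ContinuousAt (I.D o.x) ((fun z : E2 × E2 => z.2) 0) := I.D_contAt o.x
    exact h2.comp continuous_snd.continuousAt
  exact ContinuousAt.comp (g := fun p : B × V => I.vel p.1 p.2) I.vel_cont.continuousAt h1

theorem vel_neg_D : I.vel o.neg (I.D o.x 0) = I.E o.x e0 := by
  rw [I.D_zero, ← I.vel_eq invThm]
  rfl

theorem vel_pos_D : I.vel o.pos (I.D o.x 0) = -I.E o.x e0 := by
  rw [I.D_zero, ← E_flip_e0, ← I.vel_eq invThm, ft_flip, em_flip]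
  rfl

/-- the unit vector of the leaf -/
theorem vv_lf : ∀ᶠ z in 𝓝 (0 : E2 × E2), I.vv o.x (lf (I.uu o n' M) z)
    = I.vel (xip o n' M z.1) (I.D o.x z.2) := by
  have h1 := I.vv_of (x₀ := o.x) (F := fun z => I.vel (xip o n' M z.1) (I.D o.x z.2))
    (I.velD_contAt o (xip_cont o n' M)) ?_ fun z => I.G_vel invThm _ _
  · filter_upwards [h1, I.ev_ball] with z hz1 hz2
    rw [lf, I.grad_uu o n' M z.1 hz2]
    exact hz1
  · change I.vel (xip o n' M 0) (I.D o.x 0) = _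
    rw [xip_zero, vel_neg_D]

theorem vv_lf' : ∀ᶠ z in 𝓝 (0 : E2 × E2), I.vv o.x (lf' (I.ss o n) z)
    = -I.vel (n.inv z.1) (I.D o.x z.2) := by
  have h1 := I.vv_of (x₀ := o.x) (F := fun z => -I.vel (n.inv z.1) (I.D o.x z.2))
    (I.velD_contAt o n.inv_cont).neg ?_ fun z => ?_
  · filter_upwards [h1, I.ev_ball] with z hz1 hz2
    rw [lf', I.grad_ss o n z.1 hz2, ← mom_neg]
    exact hz1
  · change -I.vel (n.inv 0) (I.D o.x 0) = _
    rw [inv_zero, vel_pos_D, neg_neg]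
  · simp only [map_neg, neg_apply, neg_neg]
    exact I.G_vel invThm _ _

theorem grad_uu_zero : gradient (I.uu o n' M 0) 0 = 0 := by
  rw [I.grad_uu o n' M 0 I.S.zero_mem, xip_zero, vel_neg_D, mom_e0]

theorem grad_ss_zero : gradient (I.ss o n 0) 0 = 0 := by
  rw [I.grad_ss o n 0 I.S.zero_mem, inv_zero, vel_pos_D, mom_neg, mom_e0, neg_zero]

theorem grad_contAt {f : E2 → E2 → ℝ} (hf : JC f (univ ×ˢ ball 0 I.S.R)) :
    ContinuousAt (fun z : E2 × E2 => gradient (f z.1) z.2) 0 := by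
  have h1 : ContinuousAt (fun z : E2 × E2 => fderiv ℝ (f z.1) z.2) 0 :=
    hf.fderiv.continuousOn.continuousAt (hf.isOpen.mem_nhds ⟨mem_univ _, I.S.zero_mem⟩)
  have h2 : (fun z : E2 × E2 => gradient (f z.1) z.2) = fun z => cv (fderiv ℝ (f z.1) z.2) :=
    funext fun z => gradient_eq _ _
  rw [h2]
  exact ContinuousAt.comp (g := cv) cv.continuous.continuousAt h1

theorem lf_zero : lf (I.uu o n' M) 0 = 0 := by
  change ((0 : E2), gradient (I.uu o n' M 0) 0) = 0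
  rw [grad_uu_zero]
  rfl

theorem lf'_zero : lf' (I.ss o n) 0 = 0 := by
  change ((0 : E2), -gradient (I.ss o n 0) 0) = 0
  rw [grad_ss_zero, neg_zero]
  rfl

theorem lf_contAt : ContinuousAt (lf (I.uu o n' M)) 0 :=
  continuous_snd.continuousAt.prodMk (I.grad_contAt (I.uu_jc o n' M))

theorem lf'_contAt : ContinuousAt (lf' (I.ss o n)) 0 :=
  continuous_snd.continuousAt.prodMk (I.grad_contAt (I.ss_jc o n)).neg

theorem lf_tendsto : Tendsto (lf (I.uu o n' M)) (𝓝 0) (𝓝 0) := by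
  have h := (I.lf_contAt o n' M).tendsto
  rwa [lf_zero] at h

theorem lf'_tendsto : Tendsto (lf' (I.ss o n)) (𝓝 0) (𝓝 0) := by
  have h := (I.lf'_contAt o n).tendsto
  rwa [lf'_zero] at h

/-! ### the labels -/

/-- the label of the unstable leaf through `(t, π)` -/
def yh (z : E2 × E2) : E2 := M (n'.x (I.xi (I.D o.x z.1, I.vv o.x z)))

/-- the label of the stable leaf through `(t, π)` -/
def xh (z : E2 × E2) : E2 := n.x (I.xi (I.D o.x z.1, -I.vv o.x z))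

/-- the normal coordinate of `U_{γ⁻}` on the disc -/
def th (t : E2) : E2 := n.x (L.e o.x t)

/-- the normal coordinate of `U_{γ⁺}` on the disc -/
def th' (t : E2) : E2 := M (n'.x (L.e (L.flip o.x) t))

theorem line_neg_D {t : E2} (ht : t ∈ closedBall (0 : E2) 3) :
    I.S.line o.neg (I.D o.x t) = L.e o.x t := by
  rw [← I.e_eq o.x t ht]
  change _ = I.S.line (I.S.em o.x) (I.S.A o.x (0, t))
  rw [I.em_eq]
  rfl

theorem line_pos_D {t : E2} (ht : t ∈ closedBall (0 : E2) 3) :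
    I.S.line o.pos (I.D o.x t) = L.e (L.flip o.x) t := by
  rw [← I.e_eq (L.flip o.x) t ht]
  change _ = I.S.line (I.S.em (L.flip o.x)) (I.S.A (L.flip o.x) (0, t))
  rw [I.em_eq, em_flip, I.A_flip o.x t (I.S.mem_R ht)]
  rfl

theorem yh_leaf : ∀ᶠ z in 𝓝 (0 : E2 × E2), I.yh o n' M (lf (I.uu o n' M) z) = z.1 := by
  filter_upwards [I.vv_lf o n' M] with z hz
  rw [yh, hz]
  change M (n'.x (I.xi (I.D o.x z.2, I.vel (xip o n' M z.1) (I.D o.x z.2)))) = z.1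
  rw [I.xi_vel, xip, n'.inv_right, M.apply_symm_apply]

theorem xh_leaf : ∀ᶠ z in 𝓝 (0 : E2 × E2), I.xh o n (lf' (I.ss o n) z) = z.1 := by
  filter_upwards [I.vv_lf' o n] with z hz
  rw [xh, hz]
  change n.x (I.xi (I.D o.x z.2, - -I.vel (n.inv z.1) (I.D o.x z.2))) = z.1
  rw [neg_neg, I.xi_vel, n.inv_right]

theorem ev_pair {p : E2 × E2 → Prop} (h : ∀ᶠ z in 𝓝 (0 : E2 × E2), p z) :
    ∀ᶠ t in 𝓝 (0 : E2), p (0, t) := by
  have hc : ContinuousAt (fun t : E2 => ((0, t) : E2 × E2)) 0 := by fun_prop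
  exact hc.tendsto.eventually h

theorem ev_closedBall : ∀ᶠ t in 𝓝 (0 : E2), t ∈ closedBall (0 : E2) 3 :=
  closedBall_mem_nhds 0 (by norm_num)

theorem label : ∀ᶠ t in 𝓝 (0 : E2), I.yh o n' M (lf' (I.ss o n) (0, t)) = th' o n' M t := by
  filter_upwards [ev_pair (I.vv_lf' o n), ev_closedBall] with t ht1 ht2
  rw [yh, ht1]
  change M (n'.x (I.xi (I.D o.x t, -I.vel (n.inv 0) (I.D o.x t)))) = _
  rw [inv_zero, ← I.vel_line invThm, I.xi_vel, I.line_pos_D o ht2]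
  rfl

theorem label' : ∀ᶠ t in 𝓝 (0 : E2), I.xh o n (lf (I.uu o n' M) (0, t)) = th o n t := by
  filter_upwards [ev_pair (I.vv_lf o n' M), ev_closedBall] with t ht1 ht2
  rw [xh, ht1]
  change n.x (I.xi (I.D o.x t, -I.vel (xip o n' M 0) (I.D o.x t))) = _
  rw [xip_zero, ← I.vel_line invThm, I.xi_vel, I.line_neg_D o ht2]
  rfl

theorem D_fst_contAt : ∀ᶠ z in 𝓝 (0 : E2 × E2), ContinuousAt (fun z : E2 × E2 => I.D o.x z.1) z := by
  have h1 : ∀ᶠ z : E2 × E2 in 𝓝 0, z.1 ∈ ball (0 : E2) I.S.R :=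
    continuous_fst.continuousAt.eventually (isOpen_ball.mem_nhds
      (show ((0 : E2 × E2)).1 ∈ ball (0 : E2) I.S.R from I.S.zero_mem))
  filter_upwards [h1] with z hz
  exact ContinuousAt.comp (f := fun z : E2 × E2 => z.1) (I.D_smoothAt o.x hz).continuousAt
    continuous_fst.continuousAt

theorem xi_vv_contAt : ∀ᶠ z in 𝓝 (0 : E2 × E2),
    ContinuousAt (fun z : E2 × E2 => I.xi (I.D o.x z.1, I.vv o.x z)) z := by
  have h1 := (I.vv_spec o.x).eventually_nhds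
  filter_upwards [h1, I.D_fst_contAt o, I.vv_smooth o.x] with z hz1 hz2 hz3
  have h2 := I.xi_contOn (I.D o.x z.1, I.vv o.x z) hz1.self_of_nhds.2
  refine h2.tendsto.comp (tendsto_nhdsWithin_iff.2 ⟨hz2.prodMk hz3.continuousAt, ?_⟩)
  filter_upwards [hz1] with z' hz'
  exact hz'.2

theorem xi_nvv_contAt : ∀ᶠ z in 𝓝 (0 : E2 × E2),
    ContinuousAt (fun z : E2 × E2 => I.xi (I.D o.x z.1, -I.vv o.x z)) z := by
  have h1 := (I.vv_spec o.x).eventually_nhds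
  have h3 : ∀ z : E2 × E2, I.G (I.D o.x z.1) (-I.vv o.x z) (-I.vv o.x z)
      = I.G (I.D o.x z.1) (I.vv o.x z) (I.vv o.x z) := by
    intro z
    simp only [map_neg, neg_apply, neg_neg]
  filter_upwards [h1, I.D_fst_contAt o, I.vv_smooth o.x] with z hz1 hz2 hz3
  have h2 := I.xi_contOn (I.D o.x z.1, -I.vv o.x z) ((h3 z).trans hz1.self_of_nhds.2)
  refine h2.tendsto.comp (tendsto_nhdsWithin_iff.2 ⟨hz2.prodMk hz3.continuousAt.neg, ?_⟩)
  filter_upwards [hz1] with z' hz'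
  exact (h3 z').trans hz'.2

theorem xi_vv_zero : I.xi (I.D o.x (0 : E2 × E2).1, I.vv o.x 0) = o.neg := by
  rw [vv_zero, ← vel_neg_D]
  exact I.xi_vel _ _

theorem xi_nvv_zero : I.xi (I.D o.x (0 : E2 × E2).1, -I.vv o.x 0) = o.pos := by
  rw [vv_zero, ← vel_pos_D]
  exact I.xi_vel _ _

theorem xi_vv_ne : ∀ᶠ z in 𝓝 (0 : E2 × E2), I.xi (I.D o.x z.1, I.vv o.x z) ≠ o.flip.neg := by
  have h1 := (I.xi_vv_contAt o).self_of_nhds
  refine h1.eventually_ne ?_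
  rw [xi_vv_zero, flip_neg]
  exact o.neg_ne_pos

theorem xi_nvv_ne : ∀ᶠ z in 𝓝 (0 : E2 × E2), I.xi (I.D o.x z.1, -I.vv o.x z) ≠ o.neg := by
  have h1 := (I.xi_nvv_contAt o).self_of_nhds
  refine h1.eventually_ne ?_
  rw [xi_nvv_zero]
  exact o.neg_ne_pos.symm

theorem yh_cont : ∀ᶠ z in 𝓝 (0 : E2 × E2), ContinuousAt (I.yh o n' M) z := by
  filter_upwards [I.xi_vv_contAt o, I.xi_vv_ne o] with z hz1 hz2
  have h1 := ContinuousAt.comp (f := fun z : E2 × E2 => I.xi (I.D o.x z.1, I.vv o.x z))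
    (nor_contAt n' hz2) hz1
  exact ContinuousAt.comp (g := M) M.continuous.continuousAt h1

theorem xh_cont : ∀ᶠ z in 𝓝 (0 : E2 × E2), ContinuousAt (I.xh o n) z := by
  filter_upwards [I.xi_nvv_contAt o, I.xi_nvv_ne o] with z hz1 hz2
  exact ContinuousAt.comp (f := fun z : E2 × E2 => I.xi (I.D o.x z.1, -I.vv o.x z))
    (nor_contAt n hz2) hz1

theorem yh_zero : I.yh o n' M 0 = 0 := by
  rw [yh, xi_vv_zero, ← flip_pos, n'.base, map_zero]

theorem xh_zero : I.xh o n 0 = 0 := by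
  rw [xh, xi_nvv_zero, n.base]

theorem ev_fst : ∀ᶠ z : E2 × E2 in 𝓝 0, z.1 ∈ ball (0 : E2) I.S.R :=
  continuous_fst.continuousAt.eventually (isOpen_ball.mem_nhds
    (show ((0 : E2 × E2)).1 ∈ ball (0 : E2) I.S.R from I.S.zero_mem))

theorem xip_yh : ∀ᶠ z in 𝓝 (0 : E2 × E2),
    xip o n' M (I.yh o n' M z) = I.xi (I.D o.x z.1, I.vv o.x z) := by
  filter_upwards [I.xi_vv_ne o] with z hz
  rw [xip, yh, M.symm_apply_apply, n'.inv_left _ hz]

theorem inv_xh : ∀ᶠ z in 𝓝 (0 : E2 × E2),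
    n.inv (I.xh o n z) = I.xi (I.D o.x z.1, -I.vv o.x z) := by
  filter_upwards [I.xi_nvv_ne o] with z hz
  rw [xh, n.inv_left _ hz]

theorem leaf_yh : ∀ᶠ z in 𝓝 (0 : E2 × E2),
    gradient (I.uu o n' M (I.yh o n' M z)) z.1 = z.2 := by
  filter_upwards [I.xip_yh o n' M, I.ev_fst, I.vv_spec o.x] with z hz1 hz2 hz3
  rw [I.grad_uu o n' M _ hz2, hz1, I.vel_xi hz3.2]
  exact hz3.1

theorem leaf_xh : ∀ᶠ z in 𝓝 (0 : E2 × E2),
    gradient (I.ss o n (I.xh o n z)) z.1 = -z.2 := by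
  filter_upwards [I.inv_xh o n, I.ev_fst, I.vv_spec o.x] with z hz1 hz2 hz3
  have h3 : I.G (I.D o.x z.1) (-I.vv o.x z) (-I.vv o.x z) = 1 := by
    simp only [map_neg, neg_apply, neg_neg]
    exact hz3.2
  rw [I.grad_ss o n _ hz2, hz1, I.vel_xi (p := (I.D o.x z.1, -I.vv o.x z)) h3, mom_neg, hz3.1]

/-! ### the Poincaré map -/

/-- the first component of the Poincaré map of `γ⁻¹` -/
def P1 : E2 × E2 → E2 := (I.exists_poin o).choose

/-- the velocity after the return -/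
def pw : E2 × E2 → V := (I.exists_poin o).choose_spec.choose

/-- the travel time -/
def pl : E2 × E2 → ℝ := (I.exists_poin o).choose_spec.choose_spec.choose

theorem poin_spec : (∀ᶠ z in 𝓝 (0 : E2 × E2), ContDiffAt ℝ ∞ (I.P1 o) z) ∧
    (∀ᶠ z in 𝓝 (0 : E2 × E2), ContDiffAt ℝ ∞ (I.pw o) z) ∧
    (∀ᶠ z in 𝓝 (0 : E2 × E2), ContDiffAt ℝ ∞ (I.pl o) z) ∧ I.P1 o 0 = 0 ∧
    I.pw o 0 = I.E o.x e0 ∧ I.pl o 0 = o.l ∧
    ∀ᶠ z in 𝓝 (0 : E2 × E2), ∀ x, I.S.ft x = I.D o.x z.1 → I.E x e0 = I.vv o.x z →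
      I.D o.x (I.P1 o z) = I.S.ft (o.β⁻¹ • L.φ (I.pl o z) x) ∧
      I.pw o z = I.E (o.β⁻¹ • L.φ (I.pl o z) x) e0 :=
  (I.exists_poin o).choose_spec.choose_spec.choose_spec

/-- the Poincaré map of `γ⁻¹` -/
def PP (z : E2 × E2) : E2 × E2 := (I.P1 o z, I.mom o.x (I.P1 o z) (I.pw o z))

theorem PP_zero : I.PP o 0 = 0 := by
  obtain ⟨-, -, -, h1, h2, -, -⟩ := I.poin_spec o
  rw [PP, h1, h2, mom_e0]
  rfl

theorem P1_ball : ∀ᶠ z in 𝓝 (0 : E2 × E2), I.P1 o z ∈ ball (0 : E2) I.S.R := by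
  obtain ⟨h1, -, -, h2, -, -, -⟩ := I.poin_spec o
  refine h1.self_of_nhds.continuousAt.eventually (isOpen_ball.mem_nhds ?_)
  rw [h2]
  exact I.S.zero_mem

theorem PP_smooth : ∀ᶠ z in 𝓝 (0 : E2 × E2), ContDiffAt ℝ ∞ (I.PP o) z := by
  obtain ⟨h1, h2, -⟩ := I.poin_spec o
  filter_upwards [h1, h2, I.P1_ball o] with z hz1 hz2 hz3
  refine hz1.prodMk ?_
  have h3 : ContDiffAt ℝ ∞ (fun p : E2 × V => I.mom o.x p.1 p.2) (I.P1 o z, I.pw o z) :=
    (I.mom_smooth o.x).contDiffAt (I.isOpen_dom'.mem_nhds ⟨hz3, mem_univ _⟩)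
  exact ContDiffAt.comp z (f := fun z => (I.P1 o z, I.pw o z)) h3 (hz1.prodMk hz2)

theorem pl_smooth : ∀ᶠ z in 𝓝 (0 : E2 × E2), ContDiffAt ℝ ∞ (I.pl o) z :=
  (I.poin_spec o).2.2.1

/-- the action of `γ⁻¹` on the labels of the unstable leaves -/
def N' (y : E2) : E2 := M (n'.N.inv (M.symm y))

theorem xip_N' (y : E2) : xip o n' M (N' o n' M y) = o.β⁻¹ • xip o n' M y := by
  have h1 : o.β⁻¹ • xip o n' M y ≠ o.flip.neg := by
    rw [flip_neg]
    intro h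
    have h2 : xip o n' M y = o.β • o.pos := by rw [← h, smul_inv_smul]
    rw [o.smul_pos, ← flip_neg] at h2
    exact n'.inv_ne _ h2
  have h2 := n'.equiv _ h1
  have h3 : o.flip.β⁻¹ • (o.β⁻¹ • xip o n' M y) = xip o n' M y := by
    change o.β⁻¹⁻¹ • (o.β⁻¹ • xip o n' M y) = _
    rw [inv_inv, smul_inv_smul]
  rw [h3] at h2
  have h4 : n'.x (xip o n' M y) = M.symm y := n'.inv_right _
  rw [h4] at h2
  have h5 : n'.N.inv (M.symm y) = n'.x (o.β⁻¹ • xip o n' M y) := by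
    rw [h2, H790.NF.inv_fn n'.ok]
  rw [N', xip, M.symm_apply_apply, h5, n'.inv_left _ h1]

theorem inv_N (x : E2) : n.inv (n.N.fn x) = o.β⁻¹ • n.inv x := by
  have h1 : o.β⁻¹ • n.inv x ≠ o.neg := by
    intro h
    have h2 : n.inv x = o.β • o.neg := by rw [← h, smul_inv_smul]
    rw [o.smul_neg] at h2
    exact n.inv_ne _ h2
  have h2 := n.equiv _ (n.inv_ne x)
  rw [n.inv_right] at h2
  rw [← h2, n.inv_left _ h1]

theorem P_leaf : ∃ c : E2 → ℝ, ∀ᶠ z in 𝓝 (0 : E2 × E2),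
    gradient (I.uu o n' M (N' o n' M z.1)) (I.PP o (lf (I.uu o n' M) z)).1
      = (I.PP o (lf (I.uu o n' M) z)).2 ∧
    I.uu o n' M (N' o n' M z.1) (I.PP o (lf (I.uu o n' M) z)).1
      = I.uu o n' M z.1 z.2 + I.pl o (lf (I.uu o n' M) z) + c z.1 := by
  refine ⟨fun y => (I.b_act o.β⁻¹ (xip o n' M y)).choose, ?_⟩
  obtain ⟨-, -, -, -, -, -, h7⟩ := I.poin_spec o
  filter_upwards [I.vv_lf o n' M, (I.lf_tendsto o n' M).eventually h7,
    (I.lf_tendsto o n' M).eventually (I.P1_ball o)] with z hz1 hz2 hz3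
  obtain ⟨x, h1, h2, -⟩ := I.exists_frame (xip o n' M z.1) (I.D o.x z.2)
  have h3 : I.E x e0 = I.vv o.x (lf (I.uu o n' M) z) := by
    rw [hz1, ← I.vel_eq invThm, h1, h2]
  obtain ⟨h4, h5⟩ := hz2 x h2 h3
  set z' := lf (I.uu o n' M) z with hz'
  have h6 : L.em (o.β⁻¹ • L.φ (I.pl o z') x) = o.β⁻¹ • xip o n' M z.1 := by
    rw [L.em_smul, L.em_φ, h1]
  have h8 := (I.b_act o.β⁻¹ (xip o n' M z.1)).choose_spec
  constructor
  · change gradient (I.uu o n' M (N' o n' M z.1)) (I.P1 o z') = I.mom o.x (I.P1 o z') (I.pw o z')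
    rw [I.grad_uu o n' M _ hz3, xip_N', h5, ← I.vel_eq invThm, h6, h4]
  · change I.b (xip o n' M (N' o n' M z.1)) (I.D o.x (I.P1 o z')) = _
    rw [xip_N', h4, I.act_ft, h8]
    have h9 := I.b_ft_φ x (I.pl o z')
    have h10 := I.b_lv x
    rw [h1] at h9 h10
    rw [h2] at h10
    rw [h9, ← h10]
    rfl

theorem P_leaf' : ∃ c : E2 → ℝ, ∀ᶠ z in 𝓝 (0 : E2 × E2),
    gradient (I.ss o n (n.N.fn z.1)) (I.PP o (lf' (I.ss o n) z)).1
      = -(I.PP o (lf' (I.ss o n) z)).2 ∧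
    I.ss o n (n.N.fn z.1) (I.PP o (lf' (I.ss o n) z)).1
      = I.ss o n z.1 z.2 - I.pl o (lf' (I.ss o n) z) + c z.1 := by
  refine ⟨fun x => (I.b_act o.β⁻¹ (n.inv x)).choose, ?_⟩
  obtain ⟨-, -, -, -, -, -, h7⟩ := I.poin_spec o
  filter_upwards [I.vv_lf' o n, (I.lf'_tendsto o n).eventually h7,
    (I.lf'_tendsto o n).eventually (I.P1_ball o)] with z hz1 hz2 hz3
  obtain ⟨x, h1, h2, h1'⟩ := I.exists_frame (I.S.line (n.inv z.1) (I.D o.x z.2)) (I.D o.x z.2)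
  rw [I.line_line] at h1'
  have h3 : I.E x e0 = I.vv o.x (lf' (I.ss o n) z) := by
    rw [hz1, ← I.vel_eq invThm, h1, h2, I.vel_line invThm]
  obtain ⟨h4, h5⟩ := hz2 x h2 h3
  set z' := lf' (I.ss o n) z with hz'
  have h6 : L.ep (o.β⁻¹ • L.φ (I.pl o z') x) = o.β⁻¹ • n.inv z.1 := by
    rw [ep_smul, ep_φ, h1']
  have h8 := (I.b_act o.β⁻¹ (n.inv z.1)).choose_spec
  have h11 : I.vel (o.β⁻¹ • n.inv z.1) (I.S.ft (o.β⁻¹ • L.φ (I.pl o z') x))
      = -I.E (o.β⁻¹ • L.φ (I.pl o z') x) e0 := by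
    rw [← h6, ← em_flip, ← I.ft_flip, I.vel_eq invThm, E_flip_e0]
  constructor
  · change gradient (I.ss o n (n.N.fn z.1)) (I.P1 o z') = -I.mom o.x (I.P1 o z') (I.pw o z')
    rw [I.grad_ss o n _ hz3, inv_N, h5, h4, h11, mom_neg]
  · change I.b (n.inv (n.N.fn z.1)) (I.D o.x (I.P1 o z')) = _
    rw [inv_N, h4, I.act_ft, h8]
    have h9 := I.b_ep_ft_φ x (I.pl o z')
    rw [h1', h2] at h9
    rw [h9]
    rfl

end GeoIn

end Vale.Agent.P207.N3.H722
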