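import Vale.Agent.P207.N3.H722.Disc
import Vale.Agent.P207.N3.Top.Orb

/-!
# P207, line N3, PF3: the Poincaré map of a closed orbit on the transversal disc
-/

open Set Filter Topology Metric
open scoped ContDiff

noncomputable section

namespace Vale.Agent.P207.N3.H722

open Vale.Agent.P207.N3.H76 (pk tl e0 sg)

variable {Γ X B : Type} [Group Γ] [MetricSpace X] [ProperSpace X] [MulAction Γ X]
  [IsIsometricSMul Γ X] [TopologicalSpace B] [CompactSpace B] [T2Space B] [MulAction Γ B]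
  [ContinuousConstSMul Γ B]

namespace GeoIn

variable {L : Leaf Γ X B} {V : Type} [NormedAddCommGroup V] [NormedSpace ℝ V]
  [FiniteDimensional ℝ V] (I : GeoIn L V)

/-- the Busemann function grows with speed one -/
theorem b_ft_φ (x : X) (s : ℝ) : I.b (L.em x) (I.S.ft (L.φ s x)) = L.lv x + s := by
  have h := I.b_lv (L.φ s x)
  rwa [L.em_φ, L.lv_φ] at h

/-- the Busemann function of the other end decreases with speed one -/
theorem b_ep_ft_φ (x : X) (s : ℝ) :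
    I.b (L.ep x) (I.S.ft (L.φ s x)) = I.b (L.ep x) (I.S.ft x) - s := by
  have h := I.b_ft_φ (L.flip x) (-s)
  have h1 := I.b_lv (L.flip x)
  rw [em_flip, ft_flip] at h1
  have h2 : L.flip (L.φ s x) = L.φ (-s) (L.flip x) := L.flip_φ s x
  rw [em_flip, ← h2, ft_flip] at h
  rw [h, h1]
  ring

theorem ft_rot (a : O2) (x : X) : I.S.ft (L.rot a x) = I.S.ft x := by
  have h1 := I.line_eq (L.rot a x)
  rw [L.em_rot, Orb.ep_rot', ← I.line_eq x] at h1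
  obtain ⟨s, hs⟩ := (I.S.line_iff _ _ _).1 h1.symm
  rw [← I.ft_φ] at hs
  have h2 := I.b_lv (L.rot a x)
  rw [L.em_rot, L.lv_rot, hs, I.b_ft_φ] at h2
  have h3 : s = 0 := by linarith
  rw [hs, h3, L.φ_zero]

theorem E_rot_e0 (a : O2) (x : X) : I.E (L.rot a x) e0 = I.E x e0 := by
  rw [← I.vel_eq invThm, ← I.vel_eq invThm, L.em_rot, ft_rot]

/-- two frames with the same foot point and the same first vector -/
theorem ft_φ_congr {x y : X} (h1 : I.S.ft x = I.S.ft y) (h2 : I.E x e0 = I.E y e0) (s : ℝ) :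
    I.S.ft (L.φ s x) = I.S.ft (L.φ s y) := by
  rw [I.gf_ft, I.gf_ft, h1, h2]

/-! ### the unit vector with given momentum -/

variable (x₀ : X)

/-- the unit vector at `D z.1` with momentum `z.2` -/
def vv : E2 × E2 → V := (I.exists_vv x₀).choose

theorem vv_smooth : ∀ᶠ z in 𝓝 (0 : E2 × E2), ContDiffAt ℝ ∞ (I.vv x₀) z :=
  (I.exists_vv x₀).choose_spec.1

theorem vv_zero : I.vv x₀ 0 = I.E x₀ e0 := (I.exists_vv x₀).choose_spec.2.1

theorem vv_spec : ∀ᶠ z in 𝓝 (0 : E2 × E2), I.mom x₀ z.1 (I.vv x₀ z) = z.2 ∧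
    I.G (I.D x₀ z.1) (I.vv x₀ z) (I.vv x₀ z) = 1 := (I.exists_vv x₀).choose_spec.2.2.1

theorem vv_unique : ∀ᶠ p in 𝓝 ((0, I.E x₀ e0) : E2 × V), I.G (I.D x₀ p.1) p.2 p.2 = 1 →
    I.vv x₀ (p.1, I.mom x₀ p.1 p.2) = p.2 := (I.exists_vv x₀).choose_spec.2.2.2

/-! ### the Poincaré map -/

variable (o : Orb L)

theorem φ_l_eq : L.φ o.l o.x = o.β • L.rot o.a⁻¹ o.x := by
  rw [← L.rot_smul, o.smul_x, L.rot_φ, ← L.rot_mul, mul_inv_cancel, L.rot_one]

theorem inv_smul_φ (s : ℝ) : o.β⁻¹ • L.φ (o.l + s) o.x = L.φ s (L.rot o.a⁻¹ o.x) := by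
  rw [inv_smul_eq_iff, ← L.φ_smul, add_comm, L.φ_add, φ_l_eq]

/-- the position, after the application of `β⁻¹`, of the geodesic with initial momentum `p.1.2`,
at time `p.2` -/
def cc (p : (E2 × E2) × ℝ) : V :=
  I.act o.β⁻¹ (I.gf (I.D o.x p.1.1, I.vv o.x p.1, p.2))

theorem cc_frame {z : E2 × E2} {x : X} (h1 : I.S.ft x = I.D o.x z.1)
    (h2 : I.E x e0 = I.vv o.x z) (s : ℝ) : I.cc o (z, s) = I.S.ft (o.β⁻¹ • L.φ s x) := by
  rw [cc, I.act_ft, I.gf_ft, h1, h2]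

theorem cc_zero (s : ℝ) : I.cc o (0, o.l + s) = I.S.A o.x (s, 0) := by
  rw [I.cc_frame o (x := o.x) (I.D_zero o.x).symm (I.vv_zero o.x).symm, inv_smul_φ, I.ft_φ,
    L.em_rot, ft_rot]
  have h := I.S.A_psi o.x s 0 I.S.zero_mem
  have h5 : I.S.A o.x (0, 0) = I.S.ft o.x := I.S.A_zero o.x
  rw [h5, I.em_eq] at h
  exact h.symm

theorem exists_poin : ∃ (P1 : E2 × E2 → E2) (w : E2 × E2 → V) (ℓ : E2 × E2 → ℝ),
    (∀ᶠ z in 𝓝 (0 : E2 × E2), ContDiffAt ℝ ∞ P1 z) ∧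
    (∀ᶠ z in 𝓝 (0 : E2 × E2), ContDiffAt ℝ ∞ w z) ∧
    (∀ᶠ z in 𝓝 (0 : E2 × E2), ContDiffAt ℝ ∞ ℓ z) ∧ P1 0 = 0 ∧ w 0 = I.E o.x e0 ∧
    ℓ 0 = o.l ∧
    ∀ᶠ z in 𝓝 (0 : E2 × E2), ∀ x, I.S.ft x = I.D o.x z.1 → I.E x e0 = I.vv o.x z →
      I.D o.x (P1 z) = I.S.ft (o.β⁻¹ • L.φ (ℓ z) x) ∧
      w z = I.E (o.β⁻¹ • L.φ (ℓ z) x) e0 := by
  -- the tube coordinates
  obtain ⟨T, k, hT, h1, h2, h3, h4, h5⟩ := inv_smooth I.isOpen_tube (I.A_smooth o.x)
    (a := 0) ⟨mem_univ _, I.S.zero_mem⟩ (isInvertible_of_bijective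
      (I.S.A_der o.x 0 I.S.zero_mem))
  have hA0 : I.S.A o.x 0 = I.S.ft o.x := I.S.A_zero o.x
  -- an open set on which everything is smooth
  obtain ⟨O, hO1, hO, h0O⟩ := _root_.eventually_nhds_iff.1 ((I.vv_smooth o.x).and
    ((continuous_fst.tendsto (0 : E2 × E2)).eventually (isOpen_ball.mem_nhds
      (show ((0 : E2 × E2)).1 ∈ ball (0 : E2) I.S.R from I.S.zero_mem))))
  have hcs : ContDiffOn ℝ ∞ (I.cc o) (O ×ˢ univ) := by
    have a1 : ContDiffOn ℝ ∞ (fun p : (E2 × E2) × ℝ => I.D o.x p.1.1) (O ×ˢ univ) :=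
      (I.D_smooth o.x).comp (f := fun p : (E2 × E2) × ℝ => p.1.1)
        (contDiff_fst.comp contDiff_fst).contDiffOn fun p hp => (hO1 p.1 hp.1).2
    have a2 : ContDiffOn ℝ ∞ (fun p : (E2 × E2) × ℝ => I.vv o.x p.1) (O ×ˢ univ) := by
      intro p hp
      exact ((hO1 p.1 hp.1).1.comp p contDiff_fst.contDiffAt).contDiffWithinAt
    exact (I.act_smooth _).comp_contDiffOn (I.gf_smooth.comp_contDiffOn
      (a1.prodMk (a2.prodMk contDiff_snd.contDiffOn)))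
  have hOo : IsOpen (O ×ˢ univ : Set ((E2 × E2) × ℝ)) := hO.prod isOpen_univ
  set U : Set ((E2 × E2) × ℝ) := (O ×ˢ univ) ∩ I.cc o ⁻¹' T with hUdef
  have hU : IsOpen U := hcs.continuousOn.isOpen_inter_preimage hOo hT
  have hUO : ∀ p ∈ U, p.1 ∈ O := fun p hp => hp.1.1
  have hl0 : I.cc o (0, o.l) = I.S.A o.x 0 := by
    have := I.cc_zero o 0
    rwa [add_zero] at this
  have hmem : ((0, o.l) : (E2 × E2) × ℝ) ∈ U := by
    refine ⟨⟨h0O, mem_univ _⟩, ?_⟩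
    change I.cc o (0, o.l) ∈ T
    rw [hl0]
    exact h1
  -- the time coordinate
  set κ : (E2 × E2) × ℝ → ℝ × E2 := fun p => k (I.cc o p) with hκ
  have hκs : ContDiffOn ℝ ∞ κ U :=
    h2.comp (hcs.mono inter_subset_left) fun p hp => hp.2
  set Θ : (E2 × E2) × ℝ → (E2 × E2) × ℝ := fun p => (p.1, (κ p).1) with hΘ
  have hΘs : ContDiffOn ℝ ∞ Θ U :=
    contDiff_fst.contDiffOn.prodMk (contDiff_fst.comp_contDiffOn hκs)
  have hκ0 : ∀ᶠ s in 𝓝 (0 : ℝ), κ (0, o.l + s) = (s, 0) := by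
    have hc : ContinuousAt (fun s : ℝ => ((s, 0) : ℝ × E2)) 0 := by fun_prop
    have h6 := hc.tendsto.eventually h5
    filter_upwards [h6] with s hs
    change k (I.cc o (0, o.l + s)) = (s, 0)
    rw [I.cc_zero]
    exact hs.2
  have hκ00 : κ (0, o.l) = 0 := by
    have := hκ0.self_of_nhds
    rwa [add_zero] at this
  have hΘ0 : Θ (0, o.l) = (0, 0) := by
    change ((0 : E2 × E2), (κ (0, o.l)).1) = (0, 0)
    rw [hκ00]
    rfl
  have hd : DifferentiableAt ℝ Θ (0, o.l) :=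
    (hΘs.contDiffAt (hU.mem_nhds hmem)).differentiableAt (by simp)
  have hb : Function.Bijective (fderiv ℝ Θ (0, o.l)) := by
    refine bijective_of_injective rfl ?_
    rintro ⟨a, σ⟩ h
    have e1 : HasFDerivAt (fun p => (Θ p).1) ((ContinuousLinearMap.fst ℝ (E2 × E2) ℝ).comp
        (fderiv ℝ Θ (0, o.l))) (0, o.l) := hasFDerivAt_fst.comp (0, o.l) hd.hasFDerivAt
    have e2 : HasFDerivAt (fun p => (Θ p).1) (ContinuousLinearMap.fst ℝ (E2 × E2) ℝ) (0, o.l) :=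
      hasFDerivAt_fst
    have e3 : a = 0 := by
      have := congrArg (fun A => A (a, σ)) (e2.unique e1)
      simpa [h] using this
    subst e3
    have e4 : HasDerivAt (fun s : ℝ => ((0, o.l + s) : (E2 × E2) × ℝ)) (0, 1) 0 :=
      (hasDerivAt_const (0 : ℝ) (0 : E2 × E2)).prodMk ((hasDerivAt_id (0 : ℝ)).const_add o.l)
    have hd' : HasFDerivAt Θ (fderiv ℝ Θ (0, o.l)) ((0, o.l + 0) : (E2 × E2) × ℝ) := by
      rw [add_zero]
      exact hd.hasFDerivAt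
    have e5 : HasDerivAt (fun s : ℝ => (Θ (0, o.l + s)).2) (fderiv ℝ Θ (0, o.l) (0, 1)).2 0 :=
      (hd'.comp_hasDerivAt (0 : ℝ) (f := fun s : ℝ => ((0, o.l + s) : (E2 × E2) × ℝ)) e4).snd
    have e6 : HasDerivAt (fun s : ℝ => (Θ (0, o.l + s)).2) 1 0 := by
      refine (hasDerivAt_id (0 : ℝ)).congr_of_eventuallyEq ?_
      filter_upwards [hκ0] with s hs
      change (κ (0, o.l + s)).1 = s
      rw [hs]
    have e7 := e5.unique e6
    have e8 : ((0, σ) : (E2 × E2) × ℝ) = σ • (0, 1) := by ext1 <;> simp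
    rw [e8, map_smul] at h
    have e9 : σ = 0 := by
      have e10 := congrArg Prod.snd h
      simpa [e7] using e10
    rw [e9]
    rfl
  obtain ⟨S', g, hS', g1, g2, g3, g4, g5⟩ := inv_smooth hU hΘs hmem
    (isInvertible_of_bijective hb)
  rw [hΘ0] at g1 g3
  have hι : ContDiff ℝ ∞ fun z : E2 × E2 => ((z, 0) : (E2 × E2) × ℝ) :=
    contDiff_id.prodMk contDiff_const
  have hz : ∀ᶠ z : E2 × E2 in 𝓝 0, ((z, 0) : (E2 × E2) × ℝ) ∈ S' :=
    hι.continuous.continuousAt.eventually (hS'.mem_nhds g1)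
  set ℓ : E2 × E2 → ℝ := fun z => (g (z, 0)).2 with hℓ
  have hg1 : ∀ᶠ z : E2 × E2 in 𝓝 0, g (z, 0) = (z, ℓ z) ∧ (z, ℓ z) ∈ U ∧ (κ (z, ℓ z)).1 = 0 := by
    filter_upwards [hz] with z hz
    obtain ⟨a1, a2⟩ := g4 _ hz
    have a3 : (g (z, 0)).1 = z := congrArg Prod.fst a2
    have a4 : g (z, 0) = (z, ℓ z) := Prod.ext a3 rfl
    rw [a4] at a1 a2
    exact ⟨a4, a1, congrArg Prod.snd a2⟩
  have hgs : ∀ᶠ z : E2 × E2 in 𝓝 0, ContDiffAt ℝ ∞ (fun z : E2 × E2 => g (z, 0)) z := by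
    filter_upwards [hz] with z hz
    exact (g2.contDiffAt (hS'.mem_nhds hz)).comp z hι.contDiffAt
  have hℓs : ∀ᶠ z : E2 × E2 in 𝓝 0, ContDiffAt ℝ ∞ ℓ z := by
    filter_upwards [hgs] with z hz
    exact contDiff_snd.contDiffAt.comp z hz
  have hps : ∀ᶠ z : E2 × E2 in 𝓝 0, ContDiffAt ℝ ∞ (fun z : E2 × E2 => (z, ℓ z)) z := by
    filter_upwards [hℓs] with z hz
    exact contDiffAt_id.prodMk hz
  have hcd : ∀ p ∈ U, ContDiffAt ℝ ∞ (I.cc o) p := fun p hp =>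
    (hcs.mono inter_subset_left).contDiffAt (hU.mem_nhds hp)
  refine ⟨fun z => (κ (z, ℓ z)).2, fun z => fderiv ℝ (I.cc o) (z, ℓ z) (0, 1), ℓ, ?_, ?_, hℓs,
    ?_, ?_, ?_, ?_⟩
  · filter_upwards [hps, hg1] with z hz1 hz2
    have a1 : ContDiffAt ℝ ∞ (fun z => κ (z, ℓ z)) z :=
      ContDiffAt.comp z (g := κ) (f := fun z => (z, ℓ z))
        (hκs.contDiffAt (hU.mem_nhds hz2.2.1)) hz1
    exact contDiff_snd.contDiffAt.comp z a1
  · filter_upwards [hps, hg1] with z hz1 hz2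
    have a1 : ContDiffAt ℝ ∞ (fderiv ℝ (I.cc o)) (z, ℓ z) :=
      (hcd _ hz2.2.1).fderiv_right (by simp)
    exact (a1.comp z hz1).clm_apply contDiffAt_const
  · change (κ (0, ℓ 0)).2 = 0
    have a1 : ℓ 0 = o.l := by
      change (g (0, 0)).2 = o.l
      rw [g3]
    rw [a1, hκ00]
    rfl
  · have a1 : ℓ 0 = o.l := by
      change (g (0, 0)).2 = o.l
      rw [g3]
    change fderiv ℝ (I.cc o) (0, ℓ 0) (0, 1) = _
    rw [a1]
    have a2 : HasDerivAt (fun s : ℝ => ((0, o.l + s) : (E2 × E2) × ℝ)) (0, 1) 0 :=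
      (hasDerivAt_const (0 : ℝ) (0 : E2 × E2)).prodMk ((hasDerivAt_id (0 : ℝ)).const_add o.l)
    have a3 : HasFDerivAt (I.cc o) (fderiv ℝ (I.cc o) (0, o.l))
        ((0, o.l + 0) : (E2 × E2) × ℝ) := by
      rw [add_zero]
      exact ((hcd _ hmem).differentiableAt (by simp)).hasFDerivAt
    have a4 := a3.comp_hasDerivAt (0 : ℝ) (f := fun s : ℝ => ((0, o.l + s) : (E2 × E2) × ℝ)) a2
    have a5 := I.hasDerivAt_psi_zero o.x
    refine a4.unique (a5.congr_of_eventuallyEq (Eventually.of_forall fun s => ?_))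
    change I.cc o (0, o.l + s) = _
    rw [I.cc_zero]
    have h := I.S.A_psi o.x s 0 I.S.zero_mem
    have h5 : I.S.A o.x (0, 0) = I.S.ft o.x := I.S.A_zero o.x
    rw [h5, I.em_eq] at h
    exact h
  · change (g (0, 0)).2 = o.l
    rw [g3]
  · filter_upwards [hg1] with z hz x hx1 hx2
    obtain ⟨-, b1, b2⟩ := hz
    constructor
    · have b3 : I.cc o (z, ℓ z) ∈ T := b1.2
      obtain ⟨-, b4⟩ := h4 _ b3
      have b5 : k (I.cc o (z, ℓ z)) = (0, (κ (z, ℓ z)).2) := Prod.ext b2 rfl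
      rw [b5] at b4
      change I.S.A o.x (0, (κ (z, ℓ z)).2) = _
      rw [b4, I.cc_frame o hx1 hx2]
    · have a2 : HasDerivAt (fun s : ℝ => ((z, s) : (E2 × E2) × ℝ)) (0, 1) (ℓ z) :=
        (hasDerivAt_const (ℓ z) z).prodMk (hasDerivAt_id (ℓ z))
      have a3 : HasFDerivAt (I.cc o) (fderiv ℝ (I.cc o) (z, ℓ z)) (z, ℓ z) :=
        ((hcd _ b1).differentiableAt (by simp)).hasFDerivAt
      have a4 := a3.comp_hasDerivAt (ℓ z) (f := fun s : ℝ => ((z, s) : (E2 × E2) × ℝ)) a2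
      have a5 := I.hasDerivAt_ft (o.β⁻¹ • x) (ℓ z)
      rw [L.φ_smul] at a5
      refine a4.unique (a5.congr_of_eventuallyEq (Eventually.of_forall fun s => ?_))
      change I.cc o (z, s) = _
      rw [I.cc_frame o hx1 hx2]
      simp only [L.φ_smul]

end GeoIn

end Vale.Agent.P207.N3.H722
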