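import Vale.Agent.P207.N3.H862.Inv
import Vale.Agent.P207.N3.H459.Slice

/-!
# P207, line N3, PF3: the inverse function theorem for smooth germs, covectors of the plane
-/

open Set Filter Topology Metric
open scoped ContDiff

noncomputable section

namespace Vale.Agent.P207.N3.H722

/-- a bijective linear map of finite-dimensional spaces is invertible -/
theorem isInvertible_of_bijective {E F : Type} [NormedAddCommGroup E] [NormedSpace ℝ E]
    [FiniteDimensional ℝ E] [NormedAddCommGroup F] [NormedSpace ℝ F] {A : E →L[ℝ] F}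
    (h : Function.Bijective A) : A.IsInvertible := by
  let e : E ≃ₗ[ℝ] F := LinearEquiv.ofBijective A.toLinearMap h
  have : FiniteDimensional ℝ F := e.finiteDimensional
  refine ⟨e.toContinuousLinearEquiv, ?_⟩
  ext x
  rfl

theorem bijective_of_injective {E F : Type} [NormedAddCommGroup E] [NormedSpace ℝ E]
    [FiniteDimensional ℝ E] [NormedAddCommGroup F] [NormedSpace ℝ F] [FiniteDimensional ℝ F]
    (hd : Module.finrank ℝ E = Module.finrank ℝ F) {A : E →L[ℝ] F}
    (h : ∀ v, A v = 0 → v = 0) : Function.Bijective A := by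
  have h1 : Function.Injective A.toLinearMap := by
    rw [← LinearMap.ker_eq_bot, LinearMap.ker_eq_bot']
    exact h
  exact ⟨h1, (LinearMap.injective_iff_surjective_of_finrank_eq_finrank hd).1 h1⟩

/-- the inverse function theorem, for smooth maps -/
theorem inv_smooth {E F : Type} [NormedAddCommGroup E] [NormedSpace ℝ E] [CompleteSpace E]
    [NormedAddCommGroup F] [NormedSpace ℝ F] {f : E → F} {U : Set E} {a : E} (hU : IsOpen U)
    (hf : ContDiffOn ℝ ∞ f U) (ha : a ∈ U) (hinv : (fderiv ℝ f a).IsInvertible) :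
    ∃ (T : Set F) (g : F → E), IsOpen T ∧ f a ∈ T ∧ ContDiffOn ℝ ∞ g T ∧ g (f a) = a ∧
      (∀ y ∈ T, g y ∈ U ∧ f (g y) = y) ∧ ∀ᶠ x in 𝓝 a, f x ∈ T ∧ g (f x) = x := by
  have h1 : JC (fun (_ : Unit) => f) (univ ×ˢ U) :=
    JC.of_contDiffOn hU hf (isOpen_univ.prod hU) fun p hp => hp.2
  obtain ⟨T, g, hg, h2, h3, h4, -, O, hO, h5, h6⟩ :=
    h1.inverse_local (z₀ := ()) (u₀ := a) ⟨mem_univ _, ha⟩ hinv
  refine ⟨{y | ((), y) ∈ T}, g (), isOpen_slice hg.isOpen (), h2, hg.smooth (), h3,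
    fun y hy => ⟨(h4 _ hy).1.2, (h4 _ hy).2⟩, ?_⟩
  have h7 : ∀ᶠ x in 𝓝 a, (((), x) : Unit × E) ∈ O :=
    (isOpen_slice hO ()).mem_nhds h5
  filter_upwards [h7] with x hx
  exact h6 _ hx

/-- the hypothesis of `H459` -/
theorem invThm : H459.InvThm := by
  intro Z _ E F _ _ _ _ _ f S z₀ u₀ hf h0 hb
  obtain ⟨T, g, hg, h2, h3, h4, -, O, hO, h5, h6⟩ :=
    hf.inverse_local h0 (isInvertible_of_bijective hb)
  exact ⟨T, g, hg, h2, h3, h4, by filter_upwards [hO.mem_nhds h5] with p hp using h6 p hp⟩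

/-! ### covectors of the plane -/

/-- the vector of a covector -/
def cv : (E2 →L[ℝ] ℝ) →L[ℝ] E2 :=
  ∑ i, (ContinuousLinearMap.apply ℝ ℝ (EuclideanSpace.single i (1 : ℝ) : E2)).smulRight
    (EuclideanSpace.single i (1 : ℝ) : E2)

theorem inner_cv (α : E2 →L[ℝ] ℝ) (v : E2) : inner ℝ (cv α) v = α v := by
  have h1 : v = ∑ i, v i • (EuclideanSpace.single i (1 : ℝ) : E2) := by
    ext j
    fin_cases j <;> simp [Fin.sum_univ_two]
  have h2 : α v = ∑ i, v i * α (EuclideanSpace.single i (1 : ℝ)) := by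
    conv_lhs => rw [h1]
    rw [map_sum]
    exact Finset.sum_congr rfl fun i _ => by rw [map_smul, smul_eq_mul]
  rw [h2, cv, ContinuousLinearMap.sum_apply, sum_inner]
  refine Finset.sum_congr rfl fun i _ => ?_
  rw [ContinuousLinearMap.smulRight_apply, ContinuousLinearMap.apply_apply, real_inner_smul_left,
    EuclideanSpace.inner_single_left]
  simp [mul_comm]

theorem cv_eq {α : E2 →L[ℝ] ℝ} {w : E2} (h : ∀ v, inner ℝ w v = α v) : cv α = w := by
  refine ext_inner_right ℝ fun v => ?_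
  rw [inner_cv, h]

theorem gradient_eq (f : E2 → ℝ) (t : E2) : gradient f t = cv (fderiv ℝ f t) := by
  refine ext_inner_right ℝ fun v => ?_
  rw [inner_cv, gradient, InnerProductSpace.toDual_symm_apply]

end Vale.Agent.P207.N3.H722
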