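import Vale.Agent.P207.N3.H459.Slice
import Vale.Agent.P207.N3.H76.Ext
import Vale.Agent.P207.N3.H266.Metr

/-!
# P207, line N3, package P3 (PF3): what the geometry provides on the universal cover

`GeoIn L V`: foot points in the vector space `V` (one chart of the universal cover), the slices of
`H459`, the frame vectors, the metric `G`, the Busemann functions `b`, the group and the geodesic
flow. `HessIn`: the second derivative of `b_ξ + b_η` on the geodesic `(ξ, η)`.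
-/

open Set Filter Topology Metric
open scoped ContDiff

noncomputable section

namespace Vale.Agent.P207.N3.H722

open Vale.Agent.P207.N3.H76 (pk tl e0 sg)

variable {Γ X B : Type} [Group Γ] [MetricSpace X] [ProperSpace X] [MulAction Γ X]
  [IsIsometricSMul Γ X] [TopologicalSpace B] [CompactSpace B] [T2Space B] [MulAction Γ B]
  [ContinuousConstSMul Γ B]

/-- The geometry of the universal cover, in one chart `V`. -/
structure GeoIn (L : Leaf Γ X B) (V : Type) [NormedAddCommGroup V] [NormedSpace ℝ V]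
    [FiniteDimensional ℝ V] where
  S : H459.Slice X B V
  em_eq : ∀ x, S.em x = L.em x
  ep_eq : ∀ x, S.ep x = L.ep x
  e_eq : ∀ x, ∀ u ∈ closedBall (0 : E2) 3, S.e x u = L.e x u
  ft_φ : ∀ x s, S.ft (L.φ s x) = S.psi (L.em x) s (S.ft x)
  /-- the frame, as a linear map -/
  E : X → E3 →L[ℝ] V
  r₀ : ℝ
  r₀_pos : 0 < r₀
  A_fderiv : ∀ x s u, fderiv ℝ (S.A x) 0 (s, u) = E x (pk s (r₀ • u))
  A_flip : ∀ x, ∀ u ∈ ball (0 : E2) S.R, S.A (L.flip x) (0, u) = S.A x (0, u)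
  E_flip : ∀ x c, E (L.flip x) c = E x (sg c)
  /-- the metric -/
  G : V → V →L[ℝ] V →L[ℝ] ℝ
  G_smooth : ContDiff ℝ ∞ G
  G_E : ∀ x c c', G (S.ft x) (E x c) (E x c') = inner ℝ c c'
  vec_surj : ∀ q v, G q v v = 1 → ∃ x, S.ft x = q ∧ E x e0 = v
  vec_inj : ∀ x y, S.ft x = S.ft y → E x e0 = E y e0 → L.em x = L.em y
  /-- the Busemann functions -/
  b : B → V → ℝ
  b_jc : JC b univ
  b_lv : ∀ x, b (L.em x) (S.ft x) = L.lv x
  b_der : ∀ x, HasFDerivAt (b (L.em x)) (G (S.ft x) (E x e0)) (S.ft x)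
  /-- the group -/
  act : Γ → V → V
  act_smooth : ∀ g, ContDiff ℝ ∞ (act g)
  act_ft : ∀ (g : Γ) x, S.ft (g • x) = act g (S.ft x)
  /-- the geodesic flow `(q, v, s) ↦ c (s)` -/
  gf : V × V × ℝ → V
  gf_smooth : ContDiff ℝ ∞ gf
  gf_ft : ∀ x s, S.ft (L.φ s x) = gf (S.ft x, E x e0, s)

/-- The second derivative of `b_ξ + b_η` at the points of the geodesic `(ξ, η)`. -/
structure HessIn {L : Leaf Γ X B} {V : Type} [NormedAddCommGroup V] [NormedSpace ℝ V]
    [FiniteDimensional ℝ V] (I : GeoIn L V) (M : Metr L) : Prop where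
  hess : ∀ x (v w : E2),
    fderiv ℝ (fderiv ℝ (fun q => I.b (L.em x) q + I.b (L.ep x) q)) (I.S.ft x)
      (I.E x (pk 0 v)) (I.E x (pk 0 w)) = inner ℝ (M.U x v + M.U (L.flip x) v) w

namespace GeoIn

variable {L : Leaf Γ X B} {V : Type} [NormedAddCommGroup V] [NormedSpace ℝ V]
  [FiniteDimensional ℝ V] (I : GeoIn L V)

/-! ### frames -/

theorem ft_flip (x : X) : I.S.ft (L.flip x) = I.S.ft x := by
  have h := I.A_flip x 0 I.S.zero_mem
  have h1 : ∀ y, I.S.A y (0, 0) = I.S.ft y := I.S.A_zero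
  rwa [h1, h1] at h

theorem ft_cont : Continuous I.S.ft := I.S.ft_cont

theorem E_bij (x : X) : Function.Bijective (I.E x) := by
  have h := I.S.A_der x 0 I.S.zero_mem
  have h0 : ((0, 0) : ℝ × E2) = 0 := rfl
  have hr := I.r₀_pos.ne'
  rw [h0] at h
  constructor
  · intro c c' hcc
    have key : ∀ c : E3, I.E x c = fderiv ℝ (I.S.A x) 0 (c 0, I.r₀⁻¹ • tl c) := by
      intro c
      rw [I.A_fderiv, smul_smul, mul_inv_cancel₀ hr, one_smul, H76.pk_tl]
    rw [key c, key c'] at hcc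
    have h1 := h.1 hcc
    rw [Prod.mk.injEq] at h1
    have h2 : tl c = tl c' := by
      have := congrArg (fun v => I.r₀ • v) h1.2
      simpa [smul_smul, mul_inv_cancel₀ hr] using this
    rw [← H76.pk_tl c, ← H76.pk_tl c', h1.1, h2]
  · intro v
    obtain ⟨p, hp⟩ := h.2 v
    refine ⟨pk p.1 (I.r₀ • p.2), ?_⟩
    rw [← hp, ← I.A_fderiv]

/-- the frame, as a linear equivalence -/
def EE (x : X) : E3 ≃L[ℝ] V :=
  (LinearEquiv.ofBijective (I.E x).toLinearMap (I.E_bij x)).toContinuousLinearEquiv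

@[simp] theorem EE_apply (x : X) (c : E3) : I.EE x c = I.E x c := rfl

theorem E_smul_e0 (x : X) (c : ℝ) : I.E x (c • e0) = c • I.E x e0 := map_smul _ _ _

theorem E_flip_e0 (x : X) : I.E (L.flip x) e0 = -I.E x e0 := by
  rw [I.E_flip]
  have h : sg e0 = -e0 := by
    ext i
    fin_cases i
    · change -(e0 0) = -(e0 0); rfl
    · change e0 1 = -(e0 1)
      rw [show e0 1 = 0 from rfl, neg_zero]
    · change e0 2 = -(e0 2)
      rw [show e0 2 = 0 from rfl, neg_zero]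
  rw [h, map_neg]

/-- the velocity of the geodesic of `x` at time `0` -/
theorem hasDerivAt_psi_zero (x : X) :
    HasDerivAt (fun s => I.S.psi (L.em x) s (I.S.ft x)) (I.E x e0) 0 := by
  have h1 : HasFDerivAt (I.S.A x) (fderiv ℝ (I.S.A x) 0) 0 :=
    (I.S.A_jc.differentiableAt (I.S.mem_S x 0 I.S.zero_mem)).hasFDerivAt
  have h2 : HasDerivAt (fun s : ℝ => ((s, 0) : ℝ × E2)) (1, 0) 0 :=
    (hasDerivAt_id 0).prodMk (hasDerivAt_const 0 _)
  have h3 := h1.comp_hasDerivAt (0 : ℝ) (f := fun s : ℝ => ((s, 0) : ℝ × E2)) h2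
  rw [I.A_fderiv, smul_zero] at h3
  refine h3.congr_of_eventuallyEq (Eventually.of_forall fun s => ?_)
  have h4 := I.S.A_psi x s 0 I.S.zero_mem
  have h5 : I.S.A x (0, 0) = I.S.ft x := I.S.A_zero x
  rw [h5, I.em_eq] at h4
  exact h4.symm

theorem ft_φ_add (x : X) (s t : ℝ) :
    I.S.ft (L.φ (s + t) x) = I.S.psi (L.em x) s (I.S.ft (L.φ t x)) := by
  rw [L.φ_add, I.ft_φ, L.em_φ]

theorem hasDerivAt_ft (x : X) (s : ℝ) :
    HasDerivAt (fun s => I.S.ft (L.φ s x)) (I.E (L.φ s x) e0) s := by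
  have h1 := I.hasDerivAt_psi_zero (L.φ s x)
  have h0 : (0 : ℝ) = s + -s := by ring
  rw [h0] at h1
  have h2 := h1.comp_add_const s (-s)
  refine h2.congr_of_eventuallyEq (Eventually.of_forall fun t => ?_)
  simp only
  rw [L.em_φ, ← I.ft_φ_add]
  congr 2
  ring

/-! ### the group -/

/-- the cocycle -/
theorem b_act (g : Γ) (ξ : B) : ∃ c, ∀ q, I.b (g • ξ) (I.act g q) = I.b ξ q + c := by
  obtain ⟨x, hx, -⟩ := I.S.frame ξ 0
  rw [I.em_eq] at hx
  refine ⟨L.lv (g • x) - L.lv x, fun q => ?_⟩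
  obtain ⟨y, hy, hq⟩ := I.S.frame ξ q
  rw [I.em_eq] at hy
  have h1 := I.b_lv (g • y)
  rw [L.em_smul, hy, I.act_ft, hq] at h1
  have h2 := I.b_lv y
  rw [hy, hq] at h2
  have h3 := L.lv_smul g y x (hy.trans hx.symm)
  rw [h1, h2]
  linarith

theorem ep_smul (g : Γ) (x : X) : L.ep (g • x) = g • L.ep x := by
  rw [L.ep_flip, L.flip_smul, L.em_smul, ← L.ep_flip]

theorem ep_φ (t : ℝ) (x : X) : L.ep (L.φ t x) = L.ep x := by
  rw [L.ep_flip, L.flip_φ, L.em_φ, ← L.ep_flip]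

theorem em_flip (x : X) : L.em (L.flip x) = L.ep x := (L.ep_flip x).symm

theorem ep_flip' (x : X) : L.ep (L.flip x) = L.em x := by
  rw [L.ep_flip, L.flip_flip]

/-- the forward end point -/
theorem line_eq (x : X) : I.S.line (L.em x) (I.S.ft x) = L.ep x := by
  have h := I.S.line_ft x
  rwa [I.em_eq, I.ep_eq] at h

theorem exists_frame (ξ : B) (q : V) : ∃ x, L.em x = ξ ∧ I.S.ft x = q ∧
    L.ep x = I.S.line ξ q := by
  obtain ⟨x, h1, h2⟩ := I.S.frame ξ q
  rw [I.em_eq] at h1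
  exact ⟨x, h1, h2, by rw [← I.line_eq, h1, h2]⟩

theorem line_smul (g : Γ) (ξ : B) (q : V) :
    I.S.line (g • ξ) (I.act g q) = g • I.S.line ξ q := by
  obtain ⟨x, h1, h2, h3⟩ := I.exists_frame ξ q
  have h := I.line_eq (g • x)
  rw [L.em_smul, h1, I.act_ft, h2, ep_smul, h3] at h
  exact h

theorem line_ne (ξ : B) (q : V) : I.S.line ξ q ≠ ξ := by
  obtain ⟨x, h1, h2, h3⟩ := I.exists_frame ξ q
  rw [← h3, ← h1]
  exact (L.em_ne_ep x).symm

theorem line_line (ξ : B) (q : V) : I.S.line (I.S.line ξ q) q = ξ := by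
  obtain ⟨x, h1, h2, h3⟩ := I.exists_frame ξ q
  have h := I.line_eq (L.flip x)
  rw [em_flip, h3, ft_flip, h2, ep_flip', h1] at h
  exact h

/-! ### the velocity field -/

/-- the velocity at `q` of the geodesic which comes from `ξ` -/
def vel (ξ : B) (q : V) : V := I.S.vel ξ q

theorem vel_eq (hinv : H459.InvThm) (x : X) : I.vel (L.em x) (I.S.ft x) = I.E x e0 := by
  have h1 := I.S.hasDerivAt_psi hinv (L.em x) 0 (I.S.ft x)
  rw [I.S.psi_zero] at h1
  exact h1.unique (I.hasDerivAt_psi_zero x)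

theorem vel_jc (hinv : H459.InvThm) : JC I.vel univ := I.S.vel_jc hinv

theorem vel_line (hinv : H459.InvThm) (ξ : B) (q : V) :
    I.vel (I.S.line ξ q) q = -I.vel ξ q := by
  obtain ⟨x, h1, h2, h3⟩ := I.exists_frame ξ q
  rw [← h3, ← h2, ← h1, I.vel_eq hinv, ← em_flip, ← I.ft_flip, I.vel_eq hinv, E_flip_e0]

theorem G_vel (hinv : H459.InvThm) (ξ : B) (q : V) : I.G q (I.vel ξ q) (I.vel ξ q) = 1 := by
  obtain ⟨x, h1, h2, h3⟩ := I.exists_frame ξ q
  rw [← h2, ← h1, I.vel_eq hinv, I.G_E, real_inner_self_eq_norm_sq, H76.norm_e0, one_pow]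

theorem b_hasFDerivAt (hinv : H459.InvThm) (ξ : B) (q : V) :
    HasFDerivAt (I.b ξ) (I.G q (I.vel ξ q)) q := by
  obtain ⟨x, h1, h2, h3⟩ := I.exists_frame ξ q
  rw [← h2, ← h1, I.vel_eq hinv]
  exact I.b_der x

theorem b_fderiv (hinv : H459.InvThm) (ξ : B) (q : V) :
    fderiv ℝ (I.b ξ) q = I.G q (I.vel ξ q) := (I.b_hasFDerivAt hinv ξ q).fderiv

theorem vel_inj (hinv : H459.InvThm) {ξ ξ' : B} {q : V} (h : I.vel ξ q = I.vel ξ' q) :
    ξ = ξ' := by
  obtain ⟨x, h1, h2, -⟩ := I.exists_frame ξ q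
  obtain ⟨y, h3, h4, -⟩ := I.exists_frame ξ' q
  rw [← h1, ← h3]
  apply I.vec_inj x y (h2.trans h4.symm)
  rw [← I.vel_eq hinv, ← I.vel_eq hinv, h1, h2, h3, h4]
  exact h

theorem exists_vel (hinv : H459.InvThm) {q v : V} (h : I.G q v v = 1) :
    ∃ ξ, I.vel ξ q = v := by
  obtain ⟨x, h1, h2⟩ := I.vec_surj q v h
  exact ⟨L.em x, by rw [← h1, I.vel_eq hinv, h2]⟩

theorem G_symm (q v w : V) : I.G q v w = I.G q w v := by
  obtain ⟨y, -, h2, -⟩ := I.exists_frame (L.em (Classical.choice L.nonempty)) q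
  obtain ⟨c, rfl⟩ := (I.E_bij y).2 v
  obtain ⟨c', rfl⟩ := (I.E_bij y).2 w
  rw [← h2, I.G_E, I.G_E, real_inner_comm]

theorem G_pos (q v : V) (hv : v ≠ 0) : 0 < I.G q v v := by
  obtain ⟨y, -, h2, -⟩ := I.exists_frame (L.em (Classical.choice L.nonempty)) q
  obtain ⟨c, rfl⟩ := (I.E_bij y).2 v
  rw [← h2, I.G_E]
  refine real_inner_self_pos.2 fun h => hv ?_
  rw [h, map_zero]

end GeoIn

end Vale.Agent.P207.N3.H722
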