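import Vale.Agent.P207.N3.H722.Nrm

/-!
# P207, line N3, PF3: the labels along the leaves and under the Poincaré map
-/

open Set Filter Topology Metric
open scoped ContDiff

noncomputable section

namespace Vale.Agent.P207.N3.H722

open Vale.Agent.P207.N3.H76 (pk tl e0 sg)

variable {Γ X B : Type} [Group Γ] [MetricSpace X] [ProperSpace X] [MulAction Γ X]
  [IsIsometricSMul Γ X] [TopologicalSpace B] [CompactSpace B] [T2Space B] [MulAction Γ B]
  [ContinuousConstSMul Γ B]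

namespace GeoIn

variable {L : Leaf Γ X B} {V : Type} [NormedAddCommGroup V] [NormedSpace ℝ V]
  [FiniteDimensional ℝ V] (I : GeoIn L V) (o : Orb L) (n : Nor L o) (n' : Nor L o.flip)
  (M : E2 ≃L[ℝ] E2)

/-- the other end of the geodesic with momentum `π` at `D t` -/
theorem xi_neg_vv : ∀ᶠ z in 𝓝 (0 : E2 × E2), I.xi (I.D o.x z.1, -I.vv o.x z)
    = I.S.line (I.xi (I.D o.x z.1, I.vv o.x z)) (I.D o.x z.1) := by
  filter_upwards [I.vv_spec o.x] with z hz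
  have h1 := I.vel_xi (p := (I.D o.x z.1, I.vv o.x z)) hz.2
  have h2 := I.vel_line invThm (I.xi (I.D o.x z.1, I.vv o.x z)) (I.D o.x z.1)
  simp only at h1
  rw [h1] at h2
  rw [← h2, I.xi_vel]

theorem xi_lf : ∀ᶠ z in 𝓝 (0 : E2 × E2),
    I.xi (I.D o.x z.2, I.vv o.x (lf (I.uu o n' M) z)) = xip o n' M z.1 := by
  filter_upwards [I.vv_lf o n' M] with z hz
  rw [hz, I.xi_vel]

theorem xi_nlf : ∀ᶠ z in 𝓝 (0 : E2 × E2),
    I.xi (I.D o.x z.2, -I.vv o.x (lf (I.uu o n' M) z))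
      = I.S.line (xip o n' M z.1) (I.D o.x z.2) := by
  filter_upwards [I.vv_lf o n' M] with z hz
  rw [hz, ← I.vel_line invThm, I.xi_vel]

theorem xi_lf' : ∀ᶠ z in 𝓝 (0 : E2 × E2),
    I.xi (I.D o.x z.2, I.vv o.x (lf' (I.ss o n) z))
      = I.S.line (n.inv z.1) (I.D o.x z.2) := by
  filter_upwards [I.vv_lf' o n] with z hz
  rw [hz, ← I.vel_line invThm, I.xi_vel]

theorem xi_nlf' : ∀ᶠ z in 𝓝 (0 : E2 × E2),
    I.xi (I.D o.x z.2, -I.vv o.x (lf' (I.ss o n) z)) = n.inv z.1 := by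
  filter_upwards [I.vv_lf' o n] with z hz
  rw [hz, neg_neg, I.xi_vel]

/-- the label of the stable leaf along an unstable leaf -/
theorem xh_lf : ∀ᶠ z in 𝓝 (0 : E2 × E2), I.xh o n (lf (I.uu o n' M) z)
    = n.x (I.S.line (xip o n' M z.1) (I.D o.x z.2)) := by
  filter_upwards [I.xi_nlf o n' M] with z hz
  rw [xh, ← hz]
  rfl

/-- the label of the unstable leaf along a stable leaf -/
theorem yh_lf' : ∀ᶠ z in 𝓝 (0 : E2 × E2), I.yh o n' M (lf' (I.ss o n) z)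
    = M (n'.x (I.S.line (n.inv z.1) (I.D o.x z.2))) := by
  filter_upwards [I.xi_lf' o n] with z hz
  rw [yh, ← hz]
  rfl

theorem inv_xh_lf : ∀ᶠ z in 𝓝 (0 : E2 × E2), n.inv (I.xh o n (lf (I.uu o n' M) z))
    = I.S.line (xip o n' M z.1) (I.D o.x z.2) := by
  filter_upwards [(I.lf_tendsto o n' M).eventually (I.inv_xh o n), I.xi_nlf o n' M] with z h1 h2
  rw [h1, ← h2]
  rfl

theorem xip_yh_lf' : ∀ᶠ z in 𝓝 (0 : E2 × E2), xip o n' M (I.yh o n' M (lf' (I.ss o n) z))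
    = I.S.line (n.inv z.1) (I.D o.x z.2) := by
  filter_upwards [(I.lf'_tendsto o n).eventually (I.xip_yh o n' M), I.xi_lf' o n] with z h1 h2
  rw [h1, ← h2]
  rfl

/-- the frame over `D z.1` with momentum `z.2` -/
theorem exists_fr : ∀ᶠ z in 𝓝 (0 : E2 × E2), ∃ x, L.em x = I.xi (I.D o.x z.1, I.vv o.x z) ∧
    I.S.ft x = I.D o.x z.1 ∧ I.E x e0 = I.vv o.x z ∧
    L.ep x = I.xi (I.D o.x z.1, -I.vv o.x z) := by
  filter_upwards [I.vv_spec o.x, I.xi_neg_vv o] with z hz hz2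
  obtain ⟨x, h1, h2, h3⟩ := I.exists_frame (I.xi (I.D o.x z.1, I.vv o.x z)) (I.D o.x z.1)
  refine ⟨x, h1, h2, ?_, h3.trans hz2.symm⟩
  rw [← I.vel_eq invThm, h1, h2]
  exact I.vel_xi (p := (I.D o.x z.1, I.vv o.x z)) hz.2

/-- the Poincaré map in terms of frames -/
theorem PP_fr : ∀ᶠ z in 𝓝 (0 : E2 × E2), ∀ x, I.S.ft x = I.D o.x z.1 → I.E x e0 = I.vv o.x z →
    I.D o.x (I.PP o z).1 = I.S.ft (o.β⁻¹ • L.φ (I.pl o z) x) ∧
    I.vv o.x (I.PP o z) = I.E (o.β⁻¹ • L.φ (I.pl o z) x) e0 := by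
  obtain ⟨c1, c2, c3, c4, c5, c6, c7⟩ := I.poin_spec o
  have hw : Tendsto (fun z : E2 × E2 => ((I.P1 o z, I.pw o z) : E2 × V)) (𝓝 0)
      (𝓝 (0, I.E o.x e0)) := by
    have h1 := c1.self_of_nhds.continuousAt.prodMk c2.self_of_nhds.continuousAt
    have h2 : Tendsto (fun z : E2 × E2 => ((I.P1 o z, I.pw o z) : E2 × V)) (𝓝 0)
      (𝓝 (I.P1 o 0, I.pw o 0)) := h1
    rwa [c4, c5] at h2
  filter_upwards [c7, hw.eventually (I.vv_unique o.x)] with z h1 h2 x hx1 hx2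
  obtain ⟨h3, h4⟩ := h1 x hx1 hx2
  refine ⟨h3, ?_⟩
  change I.vv o.x (I.P1 o z, I.mom o.x (I.P1 o z) (I.pw o z)) = _
  rw [h2 ?_, h4]
  rw [h3, h4, I.G_E, real_inner_self_eq_norm_sq, H76.norm_e0, one_pow]

/-- the two ends under the Poincaré map -/
theorem xi_PP : ∀ᶠ z in 𝓝 (0 : E2 × E2),
    I.xi (I.D o.x (I.PP o z).1, I.vv o.x (I.PP o z))
      = o.β⁻¹ • I.xi (I.D o.x z.1, I.vv o.x z) ∧
    I.xi (I.D o.x (I.PP o z).1, -I.vv o.x (I.PP o z))
      = o.β⁻¹ • I.xi (I.D o.x z.1, -I.vv o.x z) := by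
  filter_upwards [I.PP_fr o, I.exists_fr o] with z h1 h2
  obtain ⟨x, a1, a2, a3, a4⟩ := h2
  obtain ⟨h3, h4⟩ := h1 x a2 a3
  rw [h3, h4]
  constructor
  · rw [← I.vel_eq invThm, I.xi_vel, L.em_smul, L.em_φ, a1]
  · rw [← E_flip_e0, ← I.vel_eq invThm, ft_flip, I.xi_vel, em_flip, ep_smul, ep_φ, a4]

theorem PP_tendsto : Tendsto (I.PP o) (𝓝 0) (𝓝 0) := by
  have h := (I.PP_smooth o).self_of_nhds.continuousAt.tendsto
  rwa [PP_zero] at h

theorem yh_PP : ∀ᶠ z in 𝓝 (0 : E2 × E2), I.yh o n' M (I.PP o z) = N' o n' M (I.yh o n' M z) := by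
  filter_upwards [I.xi_PP o, I.xip_yh o n' M, (I.PP_tendsto o).eventually (I.xip_yh o n' M)]
    with z h1 h2 h3
  have h4 : xip o n' M (I.yh o n' M (I.PP o z)) = xip o n' M (N' o n' M (I.yh o n' M z)) := by
    rw [h3, h1.1, xip_N', h2]
  have h5 := congrArg (fun η => M (n'.x η)) h4
  simp only [xip, n'.inv_right, M.apply_symm_apply] at h5
  exact h5

theorem xh_PP : ∀ᶠ z in 𝓝 (0 : E2 × E2), I.xh o n (I.PP o z) = n.N.fn (I.xh o n z) := by
  filter_upwards [I.xi_PP o, I.inv_xh o n, (I.PP_tendsto o).eventually (I.inv_xh o n)]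
    with z h1 h2 h3
  have h4 : n.inv (I.xh o n (I.PP o z)) = n.inv (n.N.fn (I.xh o n z)) := by
    rw [h3, h1.2, inv_N, h2]
  have h5 := congrArg n.x h4
  rwa [n.inv_right, n.inv_right] at h5

/-- the forward ends along an unstable leaf, under the Poincaré map -/
theorem line_PP : ∀ᶠ z in 𝓝 (0 : E2 × E2),
    I.S.line (xip o n' M (N' o n' M z.1)) (I.D o.x (I.PP o (lf (I.uu o n' M) z)).1)
      = o.β⁻¹ • I.S.line (xip o n' M z.1) (I.D o.x z.2) := by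
  have hP := (I.PP_tendsto o).comp (I.lf_tendsto o n' M)
  filter_upwards [(I.lf_tendsto o n' M).eventually (I.xi_PP o), I.xi_lf o n' M, I.xi_nlf o n' M,
    hP.eventually (I.xi_neg_vv o)] with z h1 h2 h3 h4
  simp only [Function.comp_apply] at h4
  rw [h1.1, h1.2] at h4
  have h5 : (lf (I.uu o n' M) z).1 = z.2 := rfl
  rw [h5, h2, h3] at h4
  rw [xip_N', ← h4]

/-- the backward ends along a stable leaf, under the Poincaré map -/
theorem line_PP' : ∀ᶠ z in 𝓝 (0 : E2 × E2),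
    I.S.line (n.inv (n.N.fn z.1)) (I.D o.x (I.PP o (lf' (I.ss o n) z)).1)
      = o.β⁻¹ • I.S.line (n.inv z.1) (I.D o.x z.2) := by
  have hP := (I.PP_tendsto o).comp (I.lf'_tendsto o n)
  filter_upwards [(I.lf'_tendsto o n).eventually (I.xi_PP o), I.xi_lf' o n, I.xi_nlf' o n,
    hP.eventually (I.xi_neg_vv o)] with z h1 h2 h3 h4
  simp only [Function.comp_apply] at h4
  rw [h1.1, h1.2] at h4
  have h5 : (lf' (I.ss o n) z).1 = z.2 := rfl
  rw [h5, h2, h3] at h4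
  -- `h4 : β⁻¹ • η = line (β⁻¹ • line η (D t)) (D P)`
  have h6 := I.line_line (o.β⁻¹ • I.S.line (n.inv z.1) (I.D o.x z.2))
    (I.D o.x (I.PP o (lf' (I.ss o n) z)).1)
  rw [← h4] at h6
  rw [inv_N, h6]

end GeoIn

end Vale.Agent.P207.N3.H722
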