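import Vale.Agent.P207.N3.H722.PFOf
import Vale.Agent.P207.N3.H229.PFDens

/-!
# P207, line N3, PF3: the record, up to the field `star`
-/

open Set Filter Topology Metric MeasureTheory
open scoped ContDiff

noncomputable section

namespace Vale.Agent.P207.N3.H722

open Vale.Agent.P207.N3.H722.GeoIn
open Vale.Agent.P207.N3.H229 (rY rX WY WX)

variable {Γ X B : Type} [Group Γ] [MetricSpace X] [ProperSpace X] [MulAction Γ X]
  [IsIsometricSMul Γ X] [TopologicalSpace B] [CompactSpace B] [T2Space B] [MulAction Γ B]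
  [ContinuousConstSMul Γ B] {L : Leaf Γ X B} [MeasurableSpace B] [BorelSpace B]
  {V : Type} [NormedAddCommGroup V] [NormedSpace ℝ V] [FiniteDimensional ℝ V]

variable (I : GeoIn L V) (A : Area L) (o : Orb L) (n : Nor L o) (n' : Nor L o.flip)
  (M : E2 ≃L[ℝ] E2)

/-- the normalisation of the linear change `M` -/
def NormM : Prop := ∀ v w, inner ℝ (fderiv ℝ (th o n) 0 v) (fderiv ℝ (th' o n' M) 0 w)
      = inner ℝ (hess (I.uu o n' M 0) 0 v + hess (I.ss o n 0) 0 v) w

/-- (1*) for the pair of densities -/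
def StarM : Prop := ∀ᶠ z in 𝓝 (0 : (E2 × E2) × E2),
  gradient (I.uu o n' M z.1.2) z.2 + gradient (I.ss o n z.1.1) z.2 = 0 →
  0 < (hess (I.uu o n' M z.1.2) z.2 + hess (I.ss o n z.1.1) z.2).det ∧
  Real.log (hess (I.uu o n' M z.1.2) z.2 + hess (I.ss o n z.1.1) z.2).det
    = rY I A o n n' M z.1.2 z.2 + rX I A o n n' M z.1.1 z.2

/-- the input of the product formula at the closed orbit `o` -/
def pfIn (norm : NormM I o n n' M) (star : StarM I A o n n' M) :
    PFIn n.N.fn (N' o n' M) A.h :=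
  pfOf I o n n' M A.h (rY I A o n n' M) (rX I A o n n' M) (WY I A o n n' M) (WX I A o n n' M)
    (H229.WY_mem I A o n n' M) (H229.WX_mem I A o n n' M) (H229.rY_jc I A o n n' M)
    (H229.rX_jc I A o n n' M) norm star (H229.dens_Y I A o n n' M) (H229.dens_X I A o n n' M)
    (H229.rho_inv_Y I A o n n' M) (H229.rho_inv_X I A o n n' M) (H229.hol_Y I A o n n' M)
    (H229.hol_X I A o n n' M)

end Vale.Agent.P207.N3.H722
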